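import Crest.Agent.R55.Chain

/-!
Row 55.  Certification: the second moment over the stabiliser chain.
-/

set_option autoImplicit false
set_option linter.unusedSectionVars false

namespace Crest.Agent.R55

open Finset

variable {G Ω : Type*} [Group G] [Fintype G] [Fintype Ω] [DecidableEq Ω] [MulAction G Ω]

/-- Cost of a colour. -/
noncomputable def bc (n : ℕ) : ℝ :=
  if n = 0 then 0 else if n = 1 then Real.log 128 else
    Real.log 128 + Real.log 4 + (n - 2 : ℕ) * Real.log (4 / 3)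

lemma exp_bc (j : ℕ) : Real.exp (-bc (j + 1 + 1)) = 1 / 128 * (1 / 4 * (3 / 4) ^ j) := by
  have : j + 1 + 1 - 2 = j := by omega
  simp only [bc, this, Nat.add_eq_zero_iff, one_ne_zero, and_false, if_false, Nat.add_eq_right]
  rw [Real.exp_neg, Real.exp_add, Real.exp_add, Real.exp_nat_mul, Real.exp_log (by norm_num),
    Real.exp_log (by norm_num), Real.exp_log (by norm_num), div_pow, div_pow]
  field_simp

lemma exp_bc1 : Real.exp (-bc 1) = 1 / 128 := by
  simp only [bc, one_ne_zero, if_false, if_true]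
  rw [Real.exp_neg, Real.exp_log (by norm_num)]; norm_num

lemma sum_bc (s : ℕ) : ∑ x ∈ range (s + 1 + 1), Real.exp (-bc x) ≤ Real.exp (2 / 128) := by
  rw [sum_range_succ', sum_range_succ']
  simp only [exp_bc, zero_add, exp_bc1]
  have h1 : ∀ s : ℕ, ∑ j ∈ range s, (1 / 128 : ℝ) * (1 / 4 * (3 / 4) ^ j) =
      1 / 128 * (1 - (3 / 4) ^ s) := by
    intro s
    induction s with
    | zero => simp
    | succ s ih => rw [sum_range_succ, ih]; ring
  rw [h1]
  have h2 : (0 : ℝ) ≤ (3 / 4) ^ s := by positivity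
  have h3 := Real.add_one_le_exp (2 / 128)
  simp only [bc, if_true, neg_zero, Real.exp_zero]
  linarith

lemma count_log (K : Subgroup G) (c : Ω → ℕ) (N : ℕ) (hN : ∀ ω, c ω < N) (z : ℝ)
    (hz : ∑ x ∈ range N, Real.exp (-bc x) ≤ Real.exp z) (E : Finset Ω) (𝒢 : Finset G)
    (hne : 𝒢.Nonempty) (h𝒢 : ∀ g ∈ 𝒢, g ∈ K ∧ ∀ ω, c ω ≠ 0 → g • ω ∈ E) :
    Real.log 𝒢.card ≤ E.card * z + lg (K ⊓ St G c) + ∑ ω, bc (c ω) := by
  have h := count K c N hN (fun x => Real.exp (-bc x)) (fun _ => (Real.exp_pos _).le)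
    (by simp [bc]) E 𝒢 h𝒢
  have h0 : (0 : ℝ) < 𝒢.card := by exact_mod_cast hne.card_pos
  rw [← Real.exp_sum, sum_neg_distrib] at h
  have h2 : (∑ x ∈ range N, Real.exp (-bc x)) ^ E.card ≤ Real.exp (E.card * z) := by
    rw [Real.exp_nat_mul]
    exact pow_le_pow_left₀ (sum_nonneg fun _ _ => (Real.exp_pos _).le) hz _
  have h3 := h.trans (mul_le_mul_of_nonneg_right h2 (card_pos' _).le)
  have h4 := Real.log_le_log (mul_pos h0 (Real.exp_pos _)) h3
  rw [Real.log_mul h0.ne' (Real.exp_pos _).ne', Real.log_mul (Real.exp_pos _).ne' (card_pos' _).ne',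
    Real.log_exp, Real.log_exp] at h4
  unfold lg
  linarith

/-- The data produced by `chain`, together with the orbit hypothesis. -/
structure IsChain (A : Finset Ω) (k : Ω → ℕ) (β : ℝ) (t : Ω → ℕ) (K : ℕ → Subgroup G) : Prop where
  top : K 0 = ⊤
  anti : Antitone K
  lt : ∀ e ∈ A, k e < t e
  pres : ∀ s, ∀ g ∈ K s, ∀ e ∈ A, t e ≤ s → g • e ∈ A ∧ t (g • e) = t e ∧ k (g • e) = k e
  u1 : ∀ s, lg (⊤ : Subgroup G) - lg (K s) ≤
      ∑ e ∈ A.filter (fun e => t e ≤ s), (β + 2 ^ (t e - k e) / 8)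
  u2 : ∀ s D, D ⊆ A.filter (fun e => k e < s ∧ s < t e) →
      ∑ e ∈ D, (β + 2 ^ (s - k e) / 8) ≤ lg (K s) - lg (K s ⊓ St G (col k D))
  orb : ∀ T ⊆ A, β * T.card ≤ lg (⊤ : Subgroup G) - lg (St G (col (fun _ => 0) T))

variable {A : Finset Ω} {k : Ω → ℕ} {β : ℝ} {t : Ω → ℕ} {K : ℕ → Subgroup G}

lemma IsChain.iffU (h : IsChain A k β t K) {s : ℕ} {g : G} (hg : g ∈ K s) (ω : Ω) :
    g • ω ∈ A.filter (fun e => t e ≤ s) ↔ ω ∈ A.filter (fun e => t e ≤ s) := by
  have key : ∀ g ∈ K s, ∀ ω ∈ A.filter (fun e => t e ≤ s), g • ω ∈ A.filter (fun e => t e ≤ s) := by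
    intro g hg ω hω
    have h1 := mem_filter.1 hω
    have h2 := h.pres s g hg ω h1.1 h1.2
    exact mem_filter.2 ⟨h2.1, h2.2.1 ▸ h1.2⟩
  refine ⟨fun h1 => ?_, key g hg ω⟩
  simpa using key g⁻¹ ((K s).inv_mem hg) _ h1

open Classical in
lemma IsChain.cut (h : IsChain A k β t K) (s i : ℕ) (T : Finset Ω)
    (hT : T ⊆ A.filter (fun e => k e ≤ s ∧ s < t e)) :
    Real.log (univ.filter (fun g : G => g ∈ K s ∧
        ∀ e ∈ T, g • e ∈ A.filter (fun e => k e ≤ s ∧ s < t e))).card +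
      2 ^ (i + 1) / 8 * (T.filter (fun e => s + 1 + i < t e)).card ≤
    lg (K s) + 3 / 128 * (A.filter (fun e => k e ≤ s ∧ s < t e)).card +
      ∑ e ∈ A.filter (fun e => t e ≤ s), (2 : ℝ) ^ (t e - k e) / 8 +
      ∑ e ∈ T, (2 * Real.log 128 - β + Real.log 4 + (s - k e : ℕ) * Real.log (4 / 3)) := by
  set E := A.filter (fun e => k e ≤ s ∧ s < t e) with hE
  set U := A.filter (fun e => t e ≤ s) with hU
  set u := s + 1 + i with hu
  set T' := T.filter (fun e => ¬ u < t e) with hT'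
  set T'' := T.filter (fun e => u < t e) with hT''
  have hTE : ∀ e ∈ T, e ∈ A ∧ k e ≤ s ∧ s < t e := fun e he => mem_filter.1 (hT he)
  have l1 : 0 ≤ Real.log 128 := Real.log_nonneg (by norm_num)
  have l2 : 0 ≤ Real.log 4 := Real.log_nonneg (by norm_num)
  have l3 : 0 ≤ Real.log (4 / 3) := Real.log_nonneg (by norm_num)
  set c : Ω → ℕ := fun ω => if ω ∈ T then (if u < t ω then s - k ω + 1 + 1 else 1) else 0 with hc
  set S' := St G (col (fun _ => 0) T') with hS'
  set S'' := St G (col k T'') with hS''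
  have c1 := count_log (K s) c (s + 1 + 1 + 1) (fun ω => by
      simp only [hc]; split_ifs <;> omega) _ (sum_bc (s + 1)) E
    (univ.filter (fun g : G => g ∈ K s ∧ ∀ e ∈ T, g • e ∈ E))
    ⟨1, mem_filter.2 ⟨mem_univ _, (K s).one_mem, fun e he => by rw [one_smul]; exact hT he⟩⟩
    (fun g hg => ⟨(mem_filter.1 hg).2.1, fun ω hω => (mem_filter.1 hg).2.2 ω (by
      by_contra h0
      exact hω (by simp only [hc, if_neg h0]))⟩)
  have c1' : ∑ ω, bc (c ω) ≤
      ∑ e ∈ T, (Real.log 128 + Real.log 4 + (s - k e : ℕ) * Real.log (4 / 3)) := by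
    rw [← sum_subset (subset_univ T) (fun ω _ h0 => by simp only [hc, if_neg h0, bc, if_true])]
    refine sum_le_sum fun e he => ?_
    simp only [hc, if_pos he]
    split_ifs
    · have : s - k e + 1 + 1 - 2 = s - k e := by omega
      simp [bc, this]
    · have : (0 : ℝ) ≤ (s - k e : ℕ) * Real.log (4 / 3) := by positivity
      simp only [bc, one_ne_zero, if_false, if_true]
      linarith
  have hc1 : ∀ ω, ω ∈ T' ↔ c ω = 1 := by
    intro ω
    simp only [hc, hT', mem_filter]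
    by_cases h1 : ω ∈ T <;> by_cases h2 : u < t ω <;> simp [h1, h2]
  have hc2 : ∀ ω, ω ∈ T'' ↔ 2 ≤ c ω := by
    intro ω
    simp only [hc, hT'', mem_filter]
    by_cases h1 : ω ∈ T <;> by_cases h2 : u < t ω <;> simp [h1, h2]
  have hc3 : ∀ ω ∈ T'', c ω = s - k ω + 1 + 1 ∧ k ω ≤ s := by
    intro ω hω
    have h1 := mem_filter.1 hω
    exact ⟨by simp only [hc, if_pos h1.1, if_pos h1.2], (hTE ω h1.1).2.1⟩
  have c1'' : lg (K s ⊓ St G c) ≤ lg (K s ⊓ S' ⊓ S'') := by
    refine lg_mono ?_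
    rw [inf_assoc]
    refine inf_le_inf_left _ fun g hg => ⟨mem_St_col.2 fun ω => ?_, mem_St_col.2 fun ω => ?_⟩
    · have := mem_St.1 hg ω
      exact ⟨by rw [hc1, hc1, this], fun _ => rfl⟩
    · have := mem_St.1 hg ω
      have h3 : g • ω ∈ T'' ↔ ω ∈ T'' := by rw [hc2, hc2, this]
      refine ⟨h3, fun h4 => ?_⟩
      have h5 := hc3 ω h4
      have h6 := hc3 _ (h3.2 h4)
      omega
  have c2 := count_log (K u) (col (fun _ => 0) T') 2 (fun ω => by
      simp only [col]; split_ifs <;> omega) (1 / 128) (by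
      rw [sum_range_succ, sum_range_one, exp_bc1]
      have := Real.add_one_le_exp (1 / 128)
      simp only [bc, if_true, neg_zero, Real.exp_zero]
      linarith) E (univ.filter (fun g : G => g ∈ K u)) ⟨1, by simp⟩
    (fun g hg => ⟨(mem_filter.1 hg).2, fun ω hω => by
      have h1 : ω ∈ T' := by
        by_contra h0
        exact hω (by simp only [col, if_neg h0])
      have h2 := mem_filter.1 h1
      have h3 := hTE ω h2.1
      have h4 := h.pres u g (mem_filter.1 hg).2 ω h3.1 (not_lt.1 h2.2)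
      exact mem_filter.2 ⟨h4.1, h4.2.2 ▸ h3.2.1, h4.2.1 ▸ h3.2.2⟩⟩)
  have c2' : ∑ ω, bc (col (fun _ => 0) T' ω) ≤ ∑ _e ∈ T, Real.log 128 := by
    rw [← sum_subset (subset_univ T) (fun ω _ h0 => by
      have : ω ∉ T' := fun h1 => h0 (mem_filter.1 h1).1
      simp only [col, if_neg this, bc, if_true])]
    refine sum_le_sum fun e _ => ?_
    simp only [col]
    split_ifs <;> simp [bc, l1]
  have c2'' : Real.log (univ.filter (fun g : G => g ∈ K u)).card = lg (K u) := by
    unfold lg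
    rw [← Fintype.card_subtype, Nat.card_eq_fintype_card]
  have m1 := lg_submod (inf_le_inf_right S' (h.anti (show s ≤ u by omega))) S''
  have m2 : lg (K u ⊓ S' ⊓ S'') ≤ lg (K u ⊓ S'') := lg_mono (inf_le_inf_right _ inf_le_left)
  have m3 := h.u2 u T'' (fun e he => by
    have h1 := mem_filter.1 he
    have h2 := hTE e h1.1
    exact mem_filter.2 ⟨h2.1, by omega, h1.2⟩)
  have m3' : β * T''.card + 2 ^ (i + 1) / 8 * T''.card ≤ ∑ e ∈ T'', (β + 2 ^ (u - k e) / 8) := by
    rw [← add_mul, mul_comm, ← nsmul_eq_mul]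
    refine card_nsmul_le_sum _ _ _ fun e he => ?_
    have h2 := hTE e (mem_filter.1 he).1
    have : (2 : ℝ) ^ (i + 1) ≤ 2 ^ (u - k e) := pow_le_pow_right₀ (by norm_num) (by omega)
    linarith
  have hdis : Disjoint T' U := by
    rw [disjoint_left]
    intro e he he'
    have := hTE e (mem_filter.1 he).1
    have := (mem_filter.1 he').2
    omega
  have m4 := h.orb (T' ∪ U) (union_subset (fun e he => (hTE e (mem_filter.1 he).1).1)
    (filter_subset _ _))
  rw [card_union_of_disjoint hdis, Nat.cast_add, mul_add] at m4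
  have m5 : lg (K s ⊓ S') ≤ lg (St G (col (fun _ => 0) (T' ∪ U))) := by
    refine lg_mono (le_trans ?_ (St_union _ _ _))
    rw [inf_comm]
    exact inf_le_inf_left _ fun g hg => mem_St_col.2 fun ω => ⟨h.iffU hg ω, fun _ => rfl⟩
  have m6 := h.u1 s
  rw [sum_add_distrib, sum_const, nsmul_eq_mul, mul_comm] at m6
  have m7 : (T''.card : ℝ) + T'.card = T.card := by
    exact_mod_cast card_filter_add_card_filter_not (s := T) (fun e => u < t e)
  have m8 : ∑ e ∈ T, (2 * Real.log 128 - β + Real.log 4 + (s - k e : ℕ) * Real.log (4 / 3)) =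
      ∑ e ∈ T, (Real.log 128 + Real.log 4 + (s - k e : ℕ) * Real.log (4 / 3)) +
        ∑ _e ∈ T, Real.log 128 - β * T.card := by
    rw [mul_comm β, ← nsmul_eq_mul, ← sum_const, ← sum_add_distrib, ← sum_sub_distrib]
    exact sum_congr rfl fun e _ => by ring
  rw [m8, ← m7, mul_add β]
  rw [c2''] at c2
  linarith

open Classical in
lemma IsChain.single (h : IsChain A k β t K) (s : ℕ) (T : Finset Ω)
    (hT : T ⊆ A.filter (fun e => k e ≤ s ∧ s < t e)) :
    Real.log (univ.filter (fun g : G => g ∈ K s ∧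
        ∀ e ∈ T, g • e ∈ A.filter (fun e => k e ≤ s ∧ s < t e))).card ≤
    lg (K s) + 3 / 128 * (A.filter (fun e => k e ≤ s ∧ s < t e)).card +
      ∑ e ∈ A.filter (fun e => t e ≤ s), (2 : ℝ) ^ (t e - k e) / 8 +
      ∑ e ∈ T, (2 * Real.log 128 - β + Real.log 4 + (s - k e : ℕ) * Real.log (4 / 3) -
        (t e - s - 1 : ℕ) / 8) := by
  have hc := fun i => h.cut s i T hT
  rw [sum_sub_distrib, ← add_sub_assoc]
  generalize lg (K s) + 3 / 128 * ((A.filter (fun e => k e ≤ s ∧ s < t e)).card : ℝ) +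
      ∑ e ∈ A.filter (fun e => t e ≤ s), (2 : ℝ) ^ (t e - k e) / 8 +
      ∑ e ∈ T, (2 * Real.log 128 - β + Real.log 4 + (s - k e : ℕ) * Real.log (4 / 3)) = B at hc ⊢
  generalize Real.log (univ.filter (fun g : G => g ∈ K s ∧
        ∀ e ∈ T, g • e ∈ A.filter (fun e => k e ≤ s ∧ s < t e))).card = P at hc ⊢
  have h0 : 0 ≤ B - P := by
    have h1 := hc 0
    have : (0 : ℝ) ≤ 2 ^ (0 + 1) / 8 * (T.filter (fun e => s + 1 + 0 < t e)).card := by positivity
    linarith
  set N := T.sup t with hN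
  have h1 : ∑ e ∈ T, ((t e - s - 1 : ℕ) : ℝ) / 8 =
      ∑ i ∈ range N, ((T.filter (fun e => s + 1 + i < t e)).card : ℝ) / 8 := by
    rw [← sum_div, ← sum_div]
    congr 1
    simp_rw [card_filter]
    push_cast
    rw [sum_comm]
    refine sum_congr rfl fun e he => ?_
    have h2 : t e ≤ N := le_sup (f := t) he
    rw [← sum_filter]
    have : (range N).filter (fun i => s + 1 + i < t e) = range (t e - s - 1) := by
      ext i; simp only [mem_filter, mem_range]; omega
    rw [this]; simp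
  have h2 : ∑ i ∈ range N, ((T.filter (fun e => s + 1 + i < t e)).card : ℝ) / 8 ≤
      ∑ i ∈ range N, (B - P) * (1 / 2) ^ (i + 1) := by
    refine sum_le_sum fun i _ => ?_
    have h3 := hc i
    rw [one_div, inv_pow, ← div_eq_mul_inv, le_div_iff₀ (by positivity)]
    linarith
  have h3 : ∀ N : ℕ, ∑ i ∈ range N, (1 / 2 : ℝ) ^ (i + 1) = 1 - (1 / 2) ^ N := by
    intro N
    induction N with
    | zero => simp
    | succ N ih => rw [sum_range_succ, ih]; ring
  rw [← mul_sum, h3] at h2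
  have h4 : (0 : ℝ) ≤ (B - P) * (1 / 2) ^ N := by positivity
  rw [h1]
  linarith

open Classical in
theorem IsChain.second (h : IsChain A k β t K) (s : ℕ) (r : Ω → ℝ) (hr0 : ∀ e, 0 ≤ r e)
    (hr : ∀ e ∈ A, r e * Real.exp (-β) ≤ (1 / 2) ^ 23 * (9 / 8) ^ (t e - k e - 1)) :
    ∑ g ∈ univ.filter (fun g : G => g ∈ K s),
      ∏ e ∈ (A.filter (fun e => k e ≤ s ∧ s < t e)).filter
        (fun e => g • e ∈ A.filter (fun e => k e ≤ s ∧ s < t e)), r e ≤
    Nat.card (K s) * Real.exp (∑ e ∈ A.filter (fun e => t e ≤ s), (2 : ℝ) ^ (t e - k e) / 8 +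
      ∑ e ∈ A.filter (fun e => k e ≤ s ∧ s < t e), (3 / 2 : ℝ) ^ (s - k e) / 32) := by
  have hs := h.single s
  set E := A.filter (fun e => k e ≤ s ∧ s < t e) with hE
  set Θ := ∑ e ∈ A.filter (fun e => t e ≤ s), (2 : ℝ) ^ (t e - k e) / 8 with hΘ
  have h1 : ∀ g : G, ∏ e ∈ E.filter (fun e => g • e ∈ E), r e ≤
      ∑ T ∈ E.powerset, if ∀ e ∈ T, g • e ∈ E then ∏ e ∈ T, r e else 0 := by
    intro g
    refine le_trans ?_ (single_le_sum (f := fun T => if ∀ e ∈ T, g • e ∈ E then ∏ e ∈ T, r e else 0)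
      (fun T _ => ?_) (mem_powerset.2 (filter_subset (fun e => g • e ∈ E) E)))
    · rw [if_pos fun e he => (mem_filter.1 he).2]
    · split_ifs
      · exact prod_nonneg fun e _ => hr0 e
      · exact le_rfl
  refine (sum_le_sum fun g _ => h1 g).trans ?_
  rw [sum_comm]
  have h2 : ∀ T ∈ E.powerset, ∑ g ∈ univ.filter (fun g : G => g ∈ K s),
      (if ∀ e ∈ T, g • e ∈ E then ∏ e ∈ T, r e else 0) ≤
      Nat.card (K s) * Real.exp (3 / 128 * E.card + Θ) *
        ∏ e ∈ T, ((3 / 2 : ℝ) ^ (s - k e) / 128) := by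
    intro T hT
    have hT' := mem_powerset.1 hT
    rw [← sum_filter, filter_filter, sum_const, nsmul_eq_mul]
    have h3 := hs T hT'
    have h4 : (0 : ℝ) < (univ.filter (fun g : G => g ∈ K s ∧ ∀ e ∈ T, g • e ∈ E)).card := by
      rw [Nat.cast_pos]
      exact card_pos.2 ⟨1, mem_filter.2 ⟨mem_univ _, (K s).one_mem,
        fun e he => by rw [one_smul]; exact hT' he⟩⟩
    rw [Real.log_le_iff_le_exp h4, Real.exp_add, add_assoc, Real.exp_add, lg,
      Real.exp_log (card_pos' _), Real.exp_sum] at h3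
    refine (mul_le_mul_of_nonneg_right h3 (prod_nonneg fun e _ => hr0 e)).trans ?_
    rw [mul_assoc, ← prod_mul_distrib]
    refine mul_le_mul_of_nonneg_left (prod_le_prod
      (fun e _ => mul_nonneg (Real.exp_pos _).le (hr0 e)) fun e he => ?_) (by positivity)
    have h5 := mem_filter.1 (hT' he)
    have h6 := hr e h5.1
    set n := t e - s - 1 with hn
    set j := s - k e with hj
    have h7 : t e - k e - 1 = n + j := by omega
    rw [h7, pow_add] at h6
    have h8 : (9 / 8 : ℝ) ^ n ≤ Real.exp (n / 8) := by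
      have : Real.exp (n / 8) = Real.exp (1 / 8) ^ n := by
        rw [← Real.exp_nat_mul]; congr 1; ring
      rw [this]
      exact pow_le_pow_left₀ (by norm_num) (by linarith [Real.add_one_le_exp (1 / 8)]) _
    have h9 : Real.exp (2 * Real.log 128 - β + Real.log 4 + j * Real.log (4 / 3) - n / 8) =
        128 ^ 2 * 4 * (4 / 3) ^ j * (Real.exp (n / 8))⁻¹ * Real.exp (-β) := by
      have e1 : Real.exp (2 * Real.log 128) = 128 ^ 2 := by
        rw [show (2 : ℝ) = (2 : ℕ) by norm_num, Real.exp_nat_mul, Real.exp_log (by norm_num)]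
      rw [Real.exp_sub, Real.exp_add, Real.exp_add, sub_eq_add_neg, Real.exp_add, e1,
        Real.exp_nat_mul, Real.exp_log (by norm_num), Real.exp_log (by norm_num)]
      ring
    rw [h9, mul_assoc, mul_comm (Real.exp (-β))]
    refine (mul_le_mul_of_nonneg_left h6 (by positivity)).trans ?_
    have h10 : (3 / 2 : ℝ) ^ j = (4 / 3) ^ j * (9 / 8) ^ j := by rw [← mul_pow]; norm_num
    have h11 : (Real.exp (n / 8))⁻¹ * (9 / 8 : ℝ) ^ n ≤ 1 := by
      rw [inv_mul_le_iff₀ (Real.exp_pos _), mul_one]; exact h8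
    have h12 := mul_le_mul_of_nonneg_left h11 (show (0 : ℝ) ≤ (3 / 2) ^ j / 128 by positivity)
    rw [h10] at h12 ⊢
    refine le_of_eq_of_le ?_ (h12.trans (le_of_eq (mul_one _)))
    ring
  refine (sum_le_sum h2).trans ?_
  rw [← mul_sum, ← prod_one_add, mul_assoc]
  refine mul_le_mul_of_nonneg_left ?_ (card_pos' _).le
  have h3 : ∏ e ∈ E, (1 + (3 / 2 : ℝ) ^ (s - k e) / 128) ≤
      Real.exp (∑ e ∈ E, (3 / 2 : ℝ) ^ (s - k e) / 128) := by
    rw [Real.exp_sum]
    exact prod_le_prod (fun e _ => by positivity)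
      (fun e _ => by linarith [Real.add_one_le_exp ((3 / 2 : ℝ) ^ (s - k e) / 128)])
  refine (mul_le_mul_of_nonneg_left h3 (Real.exp_pos _).le).trans ?_
  rw [← Real.exp_add, Real.exp_le_exp]
  have h4 : 3 / 128 * (E.card : ℝ) + ∑ e ∈ E, (3 / 2 : ℝ) ^ (s - k e) / 128 ≤
      ∑ e ∈ E, (3 / 2 : ℝ) ^ (s - k e) / 32 := by
    rw [mul_comm, ← nsmul_eq_mul, ← sum_const, ← sum_add_distrib]
    refine sum_le_sum fun e _ => ?_
    have : (1 : ℝ) ≤ (3 / 2) ^ (s - k e) := one_le_pow₀ (by norm_num)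
    linarith
  linarith

end Crest.Agent.R55
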