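import Mathlib

/-!
Row 55.  Stabilisers of colourings, a weighted counting lemma, and the chain of stabilisers.
-/

set_option autoImplicit false
set_option linter.unusedSectionVars false

namespace Crest.Agent.R55

open Finset

variable {G Ω : Type*} [Group G] [Fintype G] [Fintype Ω] [DecidableEq Ω] [MulAction G Ω]

/-- Stabiliser of a colouring. -/
def St (G : Type*) [Group G] [MulAction G Ω] (c : Ω → ℕ) : Subgroup G where
  carrier := {g | ∀ ω, c (g • ω) = c ω}
  mul_mem' := fun {a b} ha hb ω => by rw [mul_smul, ha, hb]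
  one_mem' := fun ω => by rw [one_smul]
  inv_mem' := fun {a} ha ω => by rw [← ha (a⁻¹ • ω), smul_inv_smul]

lemma mem_St {c : Ω → ℕ} {g : G} : g ∈ St G c ↔ ∀ ω, c (g • ω) = c ω := Iff.rfl

/-- The colouring of a labelled set. -/
def col (k : Ω → ℕ) (D : Finset Ω) (ω : Ω) : ℕ := if ω ∈ D then k ω + 1 else 0

lemma mem_St_col {k : Ω → ℕ} {D : Finset Ω} {g : G} :
    g ∈ St G (col k D) ↔ ∀ ω, (g • ω ∈ D ↔ ω ∈ D) ∧ (ω ∈ D → k (g • ω) = k ω) := by
  rw [mem_St]
  refine forall_congr' fun ω => ?_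
  unfold col
  by_cases h1 : g • ω ∈ D <;> by_cases h2 : ω ∈ D <;> simp [h1, h2]

lemma St_union (k : Ω → ℕ) (D D' : Finset Ω) :
    St G (col k D) ⊓ St G (col k D') ≤ St G (col k (D ∪ D')) := by
  rintro g ⟨h1, h2⟩
  have h1' := mem_St_col.1 h1
  have h2' := mem_St_col.1 h2
  refine mem_St_col.2 fun ω => ⟨by rw [mem_union, mem_union, (h1' ω).1, (h2' ω).1], fun h => ?_⟩
  rcases mem_union.1 h with h | h
  · exact (h1' ω).2 h
  · exact (h2' ω).2 h

/-- Logarithm of the order. -/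
noncomputable def lg (K : Subgroup G) : ℝ := Real.log (Nat.card K)

lemma card_pos' (K : Subgroup G) : (0 : ℝ) < Nat.card K := by
  exact_mod_cast Nat.card_pos

lemma lg_nonneg (K : Subgroup G) : 0 ≤ lg K := Real.log_natCast_nonneg _

lemma lg_mono {K K' : Subgroup G} (h : K ≤ K') : lg K ≤ lg K' :=
  Real.log_le_log (card_pos' K) (by exact_mod_cast Subgroup.card_le_of_le h)

lemma card_inf_mul (K S : Subgroup G) :
    Nat.card (K ⊓ S : Subgroup G) * S.relIndex K = Nat.card K := by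
  rw [← Subgroup.card_mul_index (S.subgroupOf K), Subgroup.relIndex]
  congr 1
  rw [← Subgroup.inf_subgroupOf_right, inf_comm S K]
  exact (Nat.card_congr (Subgroup.subgroupOfEquivOfLe (H := K ⊓ S) (K := K)
    inf_le_left).toEquiv).symm

lemma lg_submod {A B : Subgroup G} (h : B ≤ A) (S : Subgroup G) :
    lg B - lg (B ⊓ S) ≤ lg A - lg (A ⊓ S) := by
  have key : ∀ K : Subgroup G, S.relIndex K ≠ 0 ∧ lg K - lg (K ⊓ S) = Real.log (S.relIndex K) := by
    intro K
    have h1 := card_inf_mul K S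
    have h2 : S.relIndex K ≠ 0 := by
      intro h0
      rw [h0, mul_zero] at h1
      exact Nat.card_pos.ne h1
    refine ⟨h2, ?_⟩
    unfold lg
    rw [← h1, Nat.cast_mul, Real.log_mul (card_pos' _).ne' (by exact_mod_cast h2)]
    ring
  rw [(key A).2, (key B).2]
  refine Real.log_le_log (by exact_mod_cast Nat.pos_of_ne_zero (key B).1) ?_
  exact_mod_cast Subgroup.relIndex_le_of_le_right h (key A).1

/-- Weighted counting of the images of a colouring inside `E`. -/
lemma count (K : Subgroup G) (c : Ω → ℕ) (N : ℕ) (hN : ∀ ω, c ω < N) (y : ℕ → ℝ)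
    (hy : ∀ x, 0 ≤ y x) (hy0 : y 0 = 1) (E : Finset Ω) (𝒢 : Finset G)
    (h𝒢 : ∀ g ∈ 𝒢, g ∈ K ∧ ∀ ω, c ω ≠ 0 → g • ω ∈ E) :
    (𝒢.card : ℝ) * ∏ ω, y (c ω) ≤
      (∑ x ∈ range N, y x) ^ E.card * Nat.card (K ⊓ St G c : Subgroup G) := by
  classical
  set P : Finset (Ω → ℕ) := Fintype.piFinset (fun ω => if ω ∈ E then range N else {0}) with hP
  set φ : G → Ω → ℕ := fun g ω => c (g⁻¹ • ω) with hφ
  have hmaps : ∀ g ∈ 𝒢, φ g ∈ P := by
    intro g hg
    rw [hP, Fintype.mem_piFinset]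
    intro ω
    split_ifs with h
    · exact mem_range.2 (hN _)
    · rw [mem_singleton]
      by_contra h0
      have := (h𝒢 g hg).2 _ h0
      rw [smul_inv_smul] at this
      exact h this
  have h1 : (𝒢.card : ℝ) * ∏ ω, y (c ω) = ∑ g ∈ 𝒢, ∏ ω, y (φ g ω) := by
    rw [sum_congr rfl (g := fun _ => ∏ ω, y (c ω)), sum_const, nsmul_eq_mul]
    intro g _
    exact Equiv.prod_comp (MulAction.toPerm g⁻¹) (fun ω => y (c ω))
  have h2 : ∑ ψ ∈ P, ∏ ω, y (ψ ω) = (∑ x ∈ range N, y x) ^ E.card := by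
    rw [hP, ← prod_univ_sum (fun ω => if ω ∈ E then range N else {0}) (fun _ x => y x)]
    rw [prod_congr rfl (g := fun ω => if ω ∈ E then ∑ x ∈ range N, y x else 1)]
    · rw [prod_ite_mem, univ_inter, prod_const]
    · intro ω _
      split_ifs <;> simp [hy0]
  rw [h1, ← sum_fiberwise_of_maps_to hmaps, ← h2, sum_mul]
  refine sum_le_sum fun ψ _ => ?_
  rw [sum_congr rfl (g := fun _ => ∏ ω, y (ψ ω)) (fun g hg => by rw [(mem_filter.1 hg).2]),
    sum_const, nsmul_eq_mul, mul_comm]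
  refine mul_le_mul_of_nonneg_left ?_ (prod_nonneg fun _ _ => hy _)
  rcases (𝒢.filter (fun g => φ g = ψ)).eq_empty_or_nonempty with h0 | ⟨g0, hg0⟩
  · rw [h0]; simp
  have hg0' := mem_filter.1 hg0
  rw [Nat.cast_le, ← Nat.card_eq_finsetCard]
  refine Nat.card_le_card_of_injective
    (fun g : (𝒢.filter (fun g => φ g = ψ)) => (⟨g0⁻¹ * g.1, ?_⟩ : (K ⊓ St G c : Subgroup G))) ?_
  · have hg := mem_filter.1 g.2
    refine ⟨K.mul_mem (K.inv_mem (h𝒢 g0 hg0'.1).1) (h𝒢 g.1 hg.1).1, fun ω => ?_⟩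
    have := congrFun (hg0'.2.trans hg.2.symm) (g.1 • ω)
    simpa [hφ, mul_smul] using this
  · intro g g' h
    exact Subtype.ext (mul_left_cancel (congrArg Subtype.val h))

/-- The chain of stabilisers of minimising labelled sets. -/
theorem chain (G : Type*) [Group G] [Fintype G] [MulAction G Ω] (A : Finset Ω) (k : Ω → ℕ)
    (β : ℝ) : ∃ (t : Ω → ℕ) (K : ℕ → Subgroup G),
    K 0 = ⊤ ∧ Antitone K ∧ (∀ e ∈ A, k e < t e) ∧
    (∀ s, ∀ g ∈ K s, ∀ e ∈ A, t e ≤ s → g • e ∈ A ∧ t (g • e) = t e ∧ k (g • e) = k e) ∧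
    (∀ s, lg (⊤ : Subgroup G) - lg (K s) ≤
      ∑ e ∈ A.filter (fun e => t e ≤ s), (β + 2 ^ (t e - k e) / 8)) ∧
    (∀ s D, D ⊆ A.filter (fun e => k e < s ∧ s < t e) →
      ∑ e ∈ D, (β + 2 ^ (s - k e) / 8) ≤ lg (K s) - lg (K s ⊓ St G (col k D))) := by
  classical
  set Φ : ℕ → Subgroup G → Finset Ω → ℝ := fun s K D =>
    lg K - lg (K ⊓ St G (col k D)) - ∑ e ∈ D, (β + 2 ^ (s - k e) / 8) with hΦ
  have hex : ∀ (s : ℕ) (p : Finset Ω × Subgroup G), ∃ D ⊆ A.filter (fun e => k e < s) \ p.1,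
      ∀ D' ⊆ A.filter (fun e => k e < s) \ p.1, Φ s p.2 D ≤ Φ s p.2 D' := by
    intro s p
    obtain ⟨D, hD, hmin⟩ := exists_min_image (A.filter (fun e => k e < s) \ p.1).powerset
      (Φ s p.2) ⟨∅, empty_mem_powerset _⟩
    exact ⟨D, mem_powerset.1 hD, fun D' hD' => hmin D' (mem_powerset.2 hD')⟩
  choose nx hnx hmin using hex
  let st : ℕ → Finset Ω × Subgroup G := fun s => Nat.rec (∅, ⊤)
    (fun s p => (p.1 ∪ nx (s + 1) p, p.2 ⊓ St G (col k (nx (s + 1) p)))) s
  set U : ℕ → Finset Ω := fun s => (st s).1 with hU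
  set K : ℕ → Subgroup G := fun s => (st s).2 with hK
  set D : ℕ → Finset Ω := fun s => nx (s + 1) (st s) with hD
  have hU0 : U 0 = ∅ := rfl
  have hK0 : K 0 = ⊤ := rfl
  have hUs : ∀ s, U (s + 1) = U s ∪ D s := fun s => rfl
  have hKs : ∀ s, K (s + 1) = K s ⊓ St G (col k (D s)) := fun s => rfl
  have hDs : ∀ s, D s ⊆ A.filter (fun e => k e < s + 1) \ U s := fun s => hnx (s + 1) (st s)
  have hDm : ∀ s, ∀ D' ⊆ A.filter (fun e => k e < s + 1) \ U s,
      Φ (s + 1) (K s) (D s) ≤ Φ (s + 1) (K s) D' := fun s => hmin (s + 1) (st s)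
  clear_value U K D
  have hUm : Monotone U := monotone_nat_of_le_succ fun s => by
    rw [hUs]; exact subset_union_left
  have hKm : Antitone K := antitone_nat_of_succ_le fun s => by rw [hKs]; exact inf_le_left
  have hU2 : ∀ s D', D' ⊆ A.filter (fun e => k e < s) \ U s →
      ∑ e ∈ D', (β + 2 ^ (s - k e) / 8) ≤ lg (K s) - lg (K s ⊓ St G (col k D')) := by
    intro s D' hD'
    rcases s with _ | s
    · have : D' = ∅ := by simpa using hD'
      rw [this, sum_empty, sub_nonneg]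
      exact lg_mono inf_le_left
    · have hdis : Disjoint (D s) D' := by
        rw [disjoint_left]
        intro e he he'
        exact (mem_sdiff.1 (hD' he')).2 (by rw [hUs]; exact mem_union_right _ he)
      have h1 := hDm s (D s ∪ D') (union_subset (hDs s) fun e he => by
        have := mem_sdiff.1 (hD' he)
        exact mem_sdiff.2 ⟨this.1, fun h => this.2 (hUm (Nat.le_succ s) h)⟩)
      simp only [hΦ] at h1
      rw [sum_union hdis] at h1
      have h2 : lg (K (s + 1) ⊓ St G (col k D')) ≤ lg (K s ⊓ St G (col k (D s ∪ D'))) := by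
        refine lg_mono ?_
        rw [hKs, inf_assoc]
        exact inf_le_inf_left _ (St_union k _ _)
      rw [← hKs] at h1
      linarith
  have hent : ∀ e ∈ A, ∃ s, e ∈ U s := by
    intro e he
    by_contra hno
    push Not at hno
    obtain ⟨m, hm⟩ := exists_nat_ge (8 * (lg (⊤ : Subgroup G) - β))
    have h1 := hU2 (k e + (m + 1)) {e} (by simp [he, hno])
    rw [sum_singleton, add_tsub_cancel_left] at h1
    have h2 : ((m + 1 : ℕ) : ℝ) < 2 ^ (m + 1) := by exact_mod_cast Nat.lt_two_pow_self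
    have h3 := lg_nonneg (K (k e + (m + 1)) ⊓ St G (col k {e}))
    have h4 : lg (K (k e + (m + 1))) ≤ lg (⊤ : Subgroup G) := lg_mono le_top
    push_cast at h2
    linarith
  set t : Ω → ℕ := fun e => if h : ∃ s, e ∈ U s then Nat.find h else 0 with ht
  have htU : ∀ e ∈ A, ∀ s, t e ≤ s ↔ e ∈ U s := by
    intro e he s
    simp only [ht, dif_pos (hent e he)]
    exact ⟨fun h => hUm h (Nat.find_spec (hent e he)), fun h => Nat.find_min' _ h⟩
  have hUA : ∀ s, U s ⊆ A := by
    intro s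
    induction s with
    | zero => rw [hU0]; exact empty_subset _
    | succ s ih =>
      rw [hUs]
      exact union_subset ih fun e he => (mem_filter.1 (mem_sdiff.1 (hDs s he)).1).1
  have hDt : ∀ s e, e ∈ D s ↔ e ∈ A ∧ t e = s + 1 := by
    intro s e
    constructor
    · intro he
      have h1 := mem_sdiff.1 (hDs s he)
      have hA := (mem_filter.1 h1.1).1
      have h2 := (htU e hA (s + 1)).2 (by rw [hUs]; exact mem_union_right _ he)
      have h3 : ¬ t e ≤ s := fun h => h1.2 ((htU e hA s).1 h)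
      exact ⟨hA, by omega⟩
    · rintro ⟨hA, h⟩
      have h2 := (htU e hA (s + 1)).1 h.le
      rw [hUs, mem_union] at h2
      refine h2.resolve_left fun h3 => ?_
      have := (htU e hA s).2 h3
      omega
  have ht1 : ∀ e ∈ A, ∃ r, t e = r + 1 := by
    intro e he
    refine Nat.exists_eq_succ_of_ne_zero fun h => ?_
    have := (htU e he 0).1 h.le
    rw [hU0] at this
    exact notMem_empty _ this
  have hUf : ∀ s, A.filter (fun e => t e ≤ s) = U s := by
    intro s
    ext e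
    rw [mem_filter]
    exact ⟨fun h => (htU e h.1 s).1 h.2, fun h => ⟨hUA s h, (htU e (hUA s h) s).2 h⟩⟩
  refine ⟨t, K, hK0, hKm, fun e he => ?_, fun s g hg e he hs => ?_, fun s => ?_,
    fun s D' hD' => hU2 s D' fun e he => ?_⟩
  · obtain ⟨r, hr⟩ := ht1 e he
    have := (mem_filter.1 (mem_sdiff.1 (hDs r ((hDt r e).2 ⟨he, hr⟩))).1).2
    omega
  · obtain ⟨r, hr⟩ := ht1 e he
    have h1 : g ∈ K (r + 1) := hKm (by omega) hg
    rw [hKs] at h1
    have h2 := mem_St_col.1 h1.2 e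
    have h3 := (hDt r e).2 ⟨he, hr⟩
    have h4 := (hDt r _).1 (h2.1.2 h3)
    exact ⟨h4.1, h4.2.trans hr.symm, h2.2 h3⟩
  · rw [hUf]
    induction s with
    | zero => simp [hU0, hK0]
    | succ s ih =>
      have hdis : Disjoint (U s) (D s) := by
        rw [disjoint_left]
        intro e he he'
        exact (mem_sdiff.1 (hDs s he')).2 he
      rw [hUs, sum_union hdis]
      have h1 := hDm s ∅ (empty_subset _)
      simp only [hΦ, sum_empty] at h1
      have h2 : lg (K s) ≤ lg (K s ⊓ St G (col k ∅)) :=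
        lg_mono (le_inf le_rfl fun g _ => mem_St_col.2 fun ω => by simp)
      rw [← hKs] at h1
      have h3 : ∑ e ∈ D s, (β + (2 : ℝ) ^ (t e - k e) / 8) =
          ∑ e ∈ D s, (β + 2 ^ (s + 1 - k e) / 8) :=
        sum_congr rfl fun e he => by rw [((hDt s e).1 he).2]
      rw [h3]
      linarith
  · have h1 := mem_filter.1 (hD' he)
    refine mem_sdiff.2 ⟨mem_filter.2 ⟨h1.1, h1.2.1⟩, fun h => ?_⟩
    have := (htU e h1.1 s).2 h
    omega

end Crest.Agent.R55
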