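import Crest.Agent.R55.Step
import Crest.Agent.R55.Cert

/-!
Row 55.  In the layered random environment some translate has small weighted deficiency.
-/

set_option autoImplicit false
set_option linter.unusedSectionVars false

namespace Crest.Agent.R55

open Finset

variable {G Ω Λ : Type*} [Group G] [Fintype G] [Fintype Ω] [DecidableEq Ω] [MulAction G Ω]
  [Fintype Λ] [DecidableEq Λ] {M : ℕ}

/-- The coordinate read by `e` in the translate by `g`. -/
def co (lay : Ω → Λ) (g : G) (e : Ω) : Ω × Λ := (g • e, lay e)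

lemma co_inj (lay : Ω → Λ) (g : G) : Function.Injective (co lay g) := fun _ _ h =>
  MulAction.injective g (congrArg Prod.fst h)

/-- Weighted deficiency (with a minus sign). -/
noncomputable def JJ (A : Finset Ω) (π : Ω → ℝ) (lay : Ω → Λ) (j0 : Λ → ℕ) (g : G)
    (W : Ω × Λ → Fin (M + 1)) : ℝ :=
  -∑ e ∈ A, π e * ((j0 (lay e) - (W (co lay g e)).1 : ℕ) : ℝ)

open Classical in
/-- Maximum of `JJ` over a subgroup. -/
noncomputable def Mx (A : Finset Ω) (π : Ω → ℝ) (lay : Ω → Λ) (j0 : Λ → ℕ) (K : Subgroup G)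
    (W : Ω × Λ → Fin (M + 1)) : ℝ :=
  (univ.filter (fun g : G => g ∈ K)).sup' ⟨1, by simp⟩ (fun g => JJ A π lay j0 g W)

variable {A : Finset Ω} {π : Ω → ℝ} {lay : Ω → Λ} {j0 : Λ → ℕ}

lemma le_Mx {K : Subgroup G} {g : G} (hg : g ∈ K) (W : Ω × Λ → Fin (M + 1)) :
    JJ A π lay j0 g W ≤ Mx A π lay j0 K W := by
  classical
  exact le_sup' (fun g => JJ A π lay j0 g W) (by simpa using hg)

lemma exists_Mx (K : Subgroup G) (W : Ω × Λ → Fin (M + 1)) :
    ∃ g ∈ K, Mx A π lay j0 K W = JJ A π lay j0 g W := by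
  classical
  obtain ⟨g, hg, h⟩ := exists_mem_eq_sup' (s := univ.filter (fun g : G => g ∈ K)) ⟨1, by simp⟩
    (fun g => JJ A π lay j0 g W)
  exact ⟨g, by simpa using hg, h⟩

lemma Ex_inv {K : Subgroup G} {g : G} (hg : g ∈ K) (B : Finset Ω) :
    Ex (gw M) (fun W => Lam (fun i => j0 i.2) (B.image (co lay g)) W * Mx A π lay j0 K W) =
    Ex (gw M) (fun W => Lam (fun i => j0 i.2) (B.image (co lay (1 : G))) W *
      Mx A π lay j0 K W) := by
  rw [← Ex_perm ((MulAction.toPerm g).prodCongr (Equiv.refl Λ))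
    (fun W => Lam (fun i => j0 i.2) (B.image (co lay (1 : G))) W * Mx A π lay j0 K W)]
  refine Ex_congr fun W => ?_
  have hJ : ∀ h : G, JJ A π lay j0 h
      (fun i => W (((MulAction.toPerm g).prodCongr (Equiv.refl Λ)) i)) =
      JJ A π lay j0 (g * h) W := by
    intro h
    simp [JJ, co, mul_smul]
  congr 1
  · unfold Lam
    rw [prod_image (co_inj lay _).injOn, prod_image (co_inj lay _).injOn]
    refine prod_congr rfl fun e _ => ?_
    have : ((MulAction.toPerm g).prodCongr (Equiv.refl Λ)) (co lay (1 : G) e) = co lay g e := by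
      simp [co]
    beta_reduce
    rw [this]
    rfl
  · apply le_antisymm
    · obtain ⟨h, hh, e⟩ := exists_Mx (A := A) (π := π) (lay := lay) (j0 := j0) K W
      rw [e]
      refine le_trans (le_of_eq ?_) (le_Mx (K.mul_mem (K.inv_mem hg) hh) _)
      rw [hJ, mul_inv_cancel_left]
    · obtain ⟨h, hh, e⟩ := exists_Mx (A := A) (π := π) (lay := lay) (j0 := j0) K
        (fun i => W (((MulAction.toPerm g).prodCongr (Equiv.refl Λ)) i))
      rw [e, hJ]
      exact le_Mx (K.mul_mem hg hh) _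

/-- The layer structure. -/
structure IsLay (A : Finset Ω) (k t : Ω → ℕ) (β : ℝ) (lay : Ω → Λ) (j0 : Λ → ℕ)
    (act : ℕ → Λ → Prop) : Prop where
  self : ∀ e ∈ A, act (k e) (lay e)
  late : ∀ e ∈ A, ∀ s, act s (lay e) → k e < s → t e ≤ s
  eq : ∀ e ∈ A, ∀ e' ∈ A, t e = t e' → k e = k e' → lay e = lay e'
  big : ∀ e ∈ A, (2 : ℝ) ^ j0 (lay e) * Real.exp (-β) ≤ (1 / 2) ^ 23 * (9 / 8) ^ (t e - k e - 1)

variable {k t : Ω → ℕ} {β : ℝ} {K : ℕ → Subgroup G} {act : ℕ → Λ → Prop}

lemma core_step (hC : IsChain A k β t K) (hL : IsLay A k t β lay j0 act) (hj : ∀ l, j0 l ≤ M)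
    (hπ : ∀ e ∈ A, 0 ≤ π e ∧ π e ≤ (1 / 2) ^ k e) (s : ℕ) :
    2 ^ s / 16 * (Ex (gw M) (fun W => Lam (fun i => j0 i.2)
        ((A.filter (fun e => k e ≤ s)).image (co lay (1 : G))) W * Mx A π lay j0 (K s) W) -
      Ex (gw M) (fun W => Lam (fun i => j0 i.2)
        ((A.filter (fun e => k e < s)).image (co lay (1 : G))) W * Mx A π lay j0 (K s) W)) ≤
    (∑ e ∈ A.filter (fun e => t e ≤ s), (2 : ℝ) ^ (t e - k e) / 8 +
      ∑ e ∈ A.filter (fun e => k e ≤ s ∧ s < t e), (3 / 2 : ℝ) ^ (s - k e) / 32) +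
      8 * (2 ^ s / 16) ^ 2 * ∑ e ∈ A.filter (fun e => s ≤ k e), π e ^ 2 := by
  classical
  set U := A.filter (fun e => t e ≤ s) with hU
  set E := A.filter (fun e => k e ≤ s ∧ s < t e) with hE
  set S : Finset (Ω × Λ) := univ.filter (fun i => act s i.2 ∧ ¬ (i.1 ∈ U ∧ lay i.1 = i.2)) with hS
  set 𝒦 : Finset G := univ.filter (fun g => g ∈ K s) with h𝒦
  have mK : ∀ g, g ∈ 𝒦 ↔ g ∈ K s := fun g => by simp [h𝒦]
  have mS : ∀ (g : G) e, co lay g e ∈ S ↔ act s (lay e) ∧ ¬ (g • e ∈ U ∧ lay (g • e) = lay e) :=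
    fun g e => by simp only [hS, co, mem_filter, mem_univ, true_and]
  have hcard : (𝒦.card : ℝ) = Nat.card (K s) := by
    rw [h𝒦, ← Fintype.card_subtype, Nat.card_eq_fintype_card]
  have hlay : ∀ g ∈ K s, ∀ e ∈ U, lay (g • e) = lay e := by
    intro g hg e he
    have h1 := mem_filter.1 he
    have h2 := hC.pres s g hg e h1.1 h1.2
    exact hL.eq _ h2.1 _ h1.1 h2.2.1 h2.2.2
  have hU1 : ∀ g ∈ K s, U.image (co lay (1 : G)) = U.image (co lay g) := by
    intro g hg
    symm
    refine eq_of_subset_of_card_le (fun i hi => ?_)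
      (by rw [card_image_of_injective _ (co_inj lay _), card_image_of_injective _ (co_inj lay _)])
    obtain ⟨e, he, rfl⟩ := mem_image.1 hi
    exact mem_image.2 ⟨g • e, (hC.iffU hg e).2 he, by simp [co, hlay g hg e he]⟩
  have hE12 : A.filter (fun e => k e < s ∧ s < t e) ∪ A.filter (fun e => k e = s) = E := by
    ext e
    simp only [hE, mem_union, mem_filter]
    have := hC.lt e
    by_cases he : e ∈ A <;> simp [he] at this ⊢
    omega
  have key := step (M := M) (j := fun i : Ω × Λ => j0 i.2) (fun i => hj _) S 𝒦 ⟨1, by simp [h𝒦]⟩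
    (U.image (co lay (1 : G))) (fun g => (A.filter (fun e => k e < s ∧ s < t e)).image (co lay g))
    (fun g => (A.filter (fun e => k e = s)).image (co lay g))
    (by
      rw [disjoint_left]
      intro i hi hi'
      obtain ⟨e, he, rfl⟩ := mem_image.1 hi
      exact ((mS _ _).1 hi').2 (by simpa using he))
    (by
      intro g _
      rw [disjoint_left]
      intro i hi hi'
      obtain ⟨e, he, rfl⟩ := mem_image.1 hi
      have h1 := mem_filter.1 he
      have := hL.late e h1.1 s ((mS _ _).1 hi').1 h1.2.1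
      omega)
    (by
      intro g hg i hi
      obtain ⟨e, he, rfl⟩ := mem_image.1 hi
      have h1 := mem_filter.1 he
      refine (mS _ _).2 ⟨h1.2 ▸ hL.self e h1.1, fun h2 => ?_⟩
      have h3 := (mem_filter.1 ((hC.iffU ((mK g).1 hg) e).1 h2.1)).2
      have := hC.lt e h1.1
      omega)
    (by
      intro g hg
      rw [hU1 g ((mK g).1 hg), disjoint_image (co_inj lay g), disjoint_left]
      intro e he he'
      have := (mem_filter.1 he).2
      have := (mem_filter.1 he').2
      omega)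
    (Mx A π lay j0 (K s)) (2 ^ s / 16) (∑ e ∈ A.filter (fun e => s ≤ k e), π e ^ 2)
    (∑ e ∈ U, (2 : ℝ) ^ (t e - k e) / 8 + ∑ e ∈ E, (3 / 2 : ℝ) ^ (s - k e) / 32) (by positivity)
    (by
      intro X'
      obtain ⟨g, hg, hM⟩ := exists_Mx (A := A) (π := π) (lay := lay) (j0 := j0) (K s) X'
      set a : Ω × Λ → ℝ := fun i =>
        if g⁻¹ • i.1 ∈ A ∧ lay (g⁻¹ • i.1) = i.2 then π (g⁻¹ • i.1) else 0 with ha
      have ha1 : ∀ e ∈ A, a (co lay g e) = π e := fun e he => by simp [ha, co, he]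
      have ha2 : ∀ i, i ∉ A.image (co lay g) → a i = 0 := by
        intro i hi
        simp only [ha]
        rw [if_neg]
        intro h
        exact hi (mem_image.2 ⟨_, h.1, by simp [co, h.2]⟩)
      have hsum : ∀ f : Ω × Λ → ℝ, ∑ i ∈ S, a i * f i =
          ∑ e ∈ A.filter (fun e => co lay g e ∈ S), π e * f (co lay g e) := by
        intro f
        rw [← sum_subset (s₁ := (A.filter (fun e => co lay g e ∈ S)).image (co lay g)),
          sum_image (co_inj lay g).injOn]
        · exact sum_congr rfl fun e he => by rw [ha1 e (mem_filter.1 he).1]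
        · intro i hi
          obtain ⟨e, he, rfl⟩ := mem_image.1 hi
          exact (mem_filter.1 he).2
        · intro i hi hi'
          rw [ha2, zero_mul]
          intro h
          obtain ⟨e, he, rfl⟩ := mem_image.1 h
          exact hi' (mem_image_of_mem _ (mem_filter.2 ⟨he, hi⟩))
      have hlev : ∀ e ∈ A, co lay g e ∈ S → s ≤ k e := by
        intro e he h
        by_contra h1
        have h2 := (mS _ _).1 h
        have h3 : e ∈ U := mem_filter.2 ⟨he, hL.late e he s h2.1 (not_le.1 h1)⟩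
        exact h2.2 ⟨(hC.iffU hg e).2 h3, hlay g hg e h3⟩
      refine ⟨a, fun i hi => ?_, ?_, fun X hX => ?_⟩
      · by_cases h : i ∈ A.image (co lay g)
        · obtain ⟨e, he, rfl⟩ := mem_image.1 h
          rw [ha1 e he]
          refine ⟨(hπ e he).1, ?_⟩
          have h1 : (1 / 2 : ℝ) ^ k e ≤ (1 / 2) ^ s :=
            pow_le_pow_of_le_one (by norm_num) (by norm_num) (hlev e he hi)
          have h2 : (2 : ℝ) ^ s * (1 / 2) ^ s = 1 := by rw [← mul_pow]; norm_num
          have h3 := mul_le_mul_of_nonneg_left ((hπ e he).2.trans h1)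
            (show (0 : ℝ) ≤ 2 ^ s by positivity)
          linarith
        · rw [ha2 i h]; norm_num
      · simp only [sq]
        rw [hsum a]
        refine le_trans (le_of_eq (sum_congr rfl fun e he => by rw [ha1 e (mem_filter.1 he).1]))
          (sum_le_sum_of_subset_of_nonneg (fun e he => ?_) fun e _ _ => mul_self_nonneg _)
        have h1 := mem_filter.1 he
        exact mem_filter.2 ⟨h1.1, hlev e h1.1 h1.2⟩
      · refine le_trans ?_ (le_Mx hg X)
        rw [hM, hsum (fun i => dd (X' i) (X i)), sum_filter]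
        unfold JJ
        rw [← neg_add', neg_le_neg_iff, ← sum_add_distrib]
        refine sum_le_sum fun e he => ?_
        split_ifs with h
        · rw [← mul_add]
          refine mul_le_mul_of_nonneg_left ?_ (hπ e he).1
          unfold dd
          rw [← Nat.cast_add, Nat.cast_le]
          omega
        · rw [hX _ h, add_zero])
    (by
      simp only [← image_union, hE12]
      have h1 := hC.second s (fun e => (2 : ℝ) ^ j0 (lay e)) (fun e => by positivity) hL.big
      rw [sum_comm, sq, mul_assoc, ← nsmul_eq_mul]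
      refine sum_le_card_nsmul _ _ _ fun g' hg' => ?_
      rw [hcard]
      refine le_trans ?_ h1
      rw [← sum_equiv (Equiv.mulLeft g'⁻¹) (s := 𝒦) (t := 𝒦)
        (f := fun g => ∏ e ∈ E.filter (fun e => (g'⁻¹ * g) • e ∈ E), (2 : ℝ) ^ j0 (lay e))
        (g := fun g => ∏ e ∈ E.filter (fun e => g • e ∈ E), (2 : ℝ) ^ j0 (lay e))
        (fun g => by
          rw [mK, mK]
          exact (Subgroup.mul_mem_cancel_left _ ((K s).inv_mem ((mK _).1 hg'))).symm)
        (fun g _ => rfl)]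
      refine sum_le_sum fun g _ => ?_
      have h2 : ∏ e ∈ E.filter (fun e => (g'⁻¹ * g) • e ∈ E), (2 : ℝ) ^ j0 (lay e) =
          ∏ i ∈ (E.filter (fun e => (g'⁻¹ * g) • e ∈ E)).image (co lay g), (2 : ℝ) ^ j0 i.2 := by
        rw [prod_image (co_inj lay g).injOn]; rfl
      rw [h2]
      refine prod_le_prod_of_subset_of_one_le (fun i hi => ?_) (fun _ _ => by positivity)
        (fun _ _ _ => one_le_pow₀ (by norm_num))
      obtain ⟨e, he, rfl⟩ := mem_image.1 (mem_inter.1 hi).1
      obtain ⟨e', he', h3⟩ := mem_image.1 (mem_inter.1 hi).2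
      refine mem_image_of_mem _ (mem_filter.2 ⟨he, ?_⟩)
      have h4 : g' • e' = g • e := congrArg Prod.fst h3
      rw [mul_smul, ← h4, inv_smul_smul]
      exact he')
  have e1 : U ∪ E = A.filter (fun e => k e ≤ s) := by
    ext e
    simp only [hE, hU, mem_union, mem_filter]
    have := hC.lt e
    by_cases he : e ∈ A <;> simp [he] at this ⊢
    omega
  have e2 : U ∪ A.filter (fun e => k e < s ∧ s < t e) = A.filter (fun e => k e < s) := by
    ext e
    simp only [hU, mem_union, mem_filter]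
    have := hC.lt e
    by_cases he : e ∈ A <;> simp [he] at this ⊢
    omega
  rw [sum_congr rfl (fun g hg => by
      rw [hU1 g ((mK g).1 hg), ← image_union, ← image_union, hE12, e1, Ex_inv ((mK g).1 hg)]),
    sum_const, sum_congr rfl (fun g hg => by
      rw [hU1 g ((mK g).1 hg), ← image_union, e2, Ex_inv ((mK g).1 hg)]),
    sum_const, nsmul_eq_mul, nsmul_eq_mul, ← mul_sub, mul_left_comm] at key
  exact le_of_mul_le_mul_left key (hcard ▸ card_pos' _)

lemma geom_tail (ρ : ℝ) (t L : ℕ) :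
    (∑ s ∈ range L, if t ≤ s then ρ ^ (s - t) else 0) * (1 - ρ) = 1 - ρ ^ (L - t) := by
  induction L with
  | zero => simp
  | succ L ih =>
    rw [sum_range_succ, add_mul, ih]
    split_ifs with h
    · rw [show L + 1 - t = L - t + 1 by omega, pow_succ]; ring
    · rw [show L + 1 - t = 0 by omega, show L - t = 0 by omega]; ring

lemma pow_head (k L : ℕ) : (∑ s ∈ range L, if s ≤ k then (2 : ℝ) ^ s else 0) ≤ 2 * 2 ^ k := by
  have h : ∀ L, (∑ s ∈ range L, if s ≤ k then (2 : ℝ) ^ s else 0) = 2 ^ (min L (k + 1)) - 1 := by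
    intro L
    induction L with
    | zero => simp
    | succ L ih =>
      rw [sum_range_succ, ih]
      split_ifs with h
      · rw [min_eq_left (by omega), min_eq_left (by omega), pow_succ]; ring
      · rw [min_eq_right (by omega), min_eq_right (by omega)]; ring
  rw [h]
  have : (2 : ℝ) ^ (min L (k + 1)) ≤ 2 ^ (k + 1) := pow_le_pow_right₀ (by norm_num) (by omega)
  rw [pow_succ] at this
  linarith

lemma err_sum {k t : ℕ} (hkt : k < t) {p : ℝ} (h1 : (1 / 2) ^ (k + 1) ≤ p) (h2 : p ≤ (1 / 2) ^ k)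
    (L : ℕ) :
    ∑ s ∈ range L, (16 / 2 ^ s * ((if t ≤ s then (2 : ℝ) ^ (t - k) / 8 else 0) +
      (if k ≤ s ∧ s < t then (3 / 2 : ℝ) ^ (s - k) / 32 else 0)) +
      2 ^ s / 2 * (if s ≤ k then p ^ 2 else 0)) ≤ 13 * p := by
  have hp : 0 ≤ p := le_trans (by positivity) h1
  have h3 : ∀ s ∈ range L, (16 / 2 ^ s * ((if t ≤ s then (2 : ℝ) ^ (t - k) / 8 else 0) +
      (if k ≤ s ∧ s < t then (3 / 2 : ℝ) ^ (s - k) / 32 else 0)) +
      2 ^ s / 2 * (if s ≤ k then p ^ 2 else 0)) ≤
      2 * (1 / 2) ^ k * (if t ≤ s then (1 / 2) ^ (s - t) else 0) +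
      1 / 2 * (1 / 2) ^ k * (if k ≤ s then (3 / 4) ^ (s - k) else 0) +
      p ^ 2 / 2 * (if s ≤ k then 2 ^ s else 0) := by
    intro s _
    rw [mul_add]
    refine add_le_add (add_le_add (le_of_eq ?_) ?_) (le_of_eq ?_)
    · split_ifs with h
      · obtain ⟨a, rfl⟩ := Nat.exists_eq_add_of_le hkt.le
        obtain ⟨b, rfl⟩ := Nat.exists_eq_add_of_le h
        simp only [add_tsub_cancel_left, pow_add, one_div, inv_pow]
        field_simp
        norm_num
      · simp
    · by_cases h : k ≤ s ∧ s < t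
      · rw [if_pos h, if_pos h.1]
        obtain ⟨b, rfl⟩ := Nat.exists_eq_add_of_le h.1
        have : (3 / 4 : ℝ) ^ b = (3 / 2) ^ b * (2 ^ b)⁻¹ := by
          rw [← inv_pow, ← mul_pow]; norm_num
        simp only [add_tsub_cancel_left, pow_add, one_div, inv_pow, this]
        apply le_of_eq
        field_simp
        norm_num
      · rw [if_neg h, mul_zero]
        split_ifs <;> positivity
    · split_ifs <;> ring
  refine (sum_le_sum h3).trans ?_
  rw [sum_add_distrib, sum_add_distrib, ← mul_sum, ← mul_sum, ← mul_sum]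
  have a1 := geom_tail (1 / 2) t L
  have a2 := geom_tail (3 / 4) k L
  have a3 := pow_head k L
  have b1 : (0 : ℝ) ≤ (1 / 2) ^ (L - t) := by positivity
  have b2 : (0 : ℝ) ≤ (3 / 4) ^ (L - k) := by positivity
  have b3 : (0 : ℝ) ≤ (1 / 2) ^ k := by positivity
  have c1 := mul_le_mul_of_nonneg_left
    (show (∑ s ∈ range L, if t ≤ s then (1 / 2 : ℝ) ^ (s - t) else 0) ≤ 2 by linarith) b3
  have c2 := mul_le_mul_of_nonneg_left
    (show (∑ s ∈ range L, if k ≤ s then (3 / 4 : ℝ) ^ (s - k) else 0) ≤ 4 by linarith) b3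
  have c3 := mul_le_mul_of_nonneg_left a3 (sq_nonneg p)
  have d1 : p * 2 ^ k ≤ 1 := by
    have h4 : (1 / 2 : ℝ) ^ k * 2 ^ k = 1 := by rw [← mul_pow]; norm_num
    have := mul_le_mul_of_nonneg_right h2 (show (0 : ℝ) ≤ 2 ^ k by positivity)
    linarith
  have d2 := mul_le_mul_of_nonneg_left d1 hp
  rw [pow_succ] at h1
  nlinarith

theorem core (hC : IsChain A k β t K) (hL : IsLay A k t β lay j0 act) (hj : ∀ l, j0 l ≤ M)
    (hπ : ∀ e ∈ A, (1 / 2) ^ (k e + 1) ≤ π e ∧ π e ≤ (1 / 2) ^ k e) :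
    -(13 * ∑ e ∈ A, π e) ≤ Ex (gw M) (Mx A π lay j0 (⊤ : Subgroup G)) := by
  classical
  have hw := gw_isW M
  have hπ' : ∀ e ∈ A, 0 ≤ π e ∧ π e ≤ (1 / 2) ^ k e := fun e he =>
    ⟨le_trans (by positivity) (hπ e he).1, (hπ e he).2⟩
  set φ : ℕ → ℝ := fun s => Ex (gw M) (fun W => Lam (fun i => j0 i.2)
    ((A.filter (fun e => k e < s)).image (co lay (1 : G))) W * Mx A π lay j0 (K s) W) with hφ
  set err : ℕ → ℝ := fun s => ∑ e ∈ A,
    (16 / 2 ^ s * ((if t e ≤ s then (2 : ℝ) ^ (t e - k e) / 8 else 0) +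
      (if k e ≤ s ∧ s < t e then (3 / 2 : ℝ) ^ (s - k e) / 32 else 0)) +
      2 ^ s / 2 * (if s ≤ k e then π e ^ 2 else 0)) with herr
  have h1 : ∀ s, φ (s + 1) ≤ φ s + err s := by
    intro s
    have h2 := core_step (π := π) hC hL hj hπ' s
    have h3 : φ (s + 1) ≤ Ex (gw M) (fun W => Lam (fun i => j0 i.2)
        ((A.filter (fun e => k e ≤ s)).image (co lay (1 : G))) W * Mx A π lay j0 (K s) W) := by
      simp only [hφ, Nat.lt_succ_iff]
      refine Ex_mono hw fun W => mul_le_mul_of_nonneg_left ?_ (Lam_nonneg _ _ _)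
      obtain ⟨g, hg, e⟩ := exists_Mx (A := A) (π := π) (lay := lay) (j0 := j0) (K (s + 1)) W
      rw [e]
      exact le_Mx (hC.anti (Nat.le_succ s) hg) W
    have h4 := mul_le_mul_of_nonneg_left h2 (show (0 : ℝ) ≤ 16 / 2 ^ s by positivity)
    rw [← mul_assoc, show (16 : ℝ) / 2 ^ s * (2 ^ s / 16) = 1 by field_simp, one_mul] at h4
    have h5 : err s = 16 / 2 ^ s * ((∑ e ∈ A.filter (fun e => t e ≤ s), (2 : ℝ) ^ (t e - k e) / 8 +
      ∑ e ∈ A.filter (fun e => k e ≤ s ∧ s < t e), (3 / 2 : ℝ) ^ (s - k e) / 32) +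
      8 * (2 ^ s / 16) ^ 2 * ∑ e ∈ A.filter (fun e => s ≤ k e), π e ^ 2) := by
      simp only [herr, sum_filter]
      rw [sum_add_distrib, ← mul_sum, ← mul_sum, sum_add_distrib]
      field_simp
      ring
    rw [h5]
    simp only [hφ] at h3 ⊢
    linarith
  have h2 : ∀ L, φ L ≤ φ 0 + ∑ s ∈ range L, err s := by
    intro L
    induction L with
    | zero => simp
    | succ L ih => rw [sum_range_succ]; linarith [h1 L]
  set L := A.sup k + 1 with hLd
  have h3 : ∑ s ∈ range L, err s ≤ 13 * ∑ e ∈ A, π e := by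
    simp only [herr]
    rw [sum_comm, mul_sum]
    exact sum_le_sum fun e he => err_sum (hC.lt e he) (hπ e he).1 (hπ e he).2 L
  have h4 : φ 0 = Ex (gw M) (Mx A π lay j0 (⊤ : Subgroup G)) := by
    simp [hφ, hC.top, Lam]
  have h5 : 0 ≤ φ L := by
    refine Ex_nonneg hw fun W => ?_
    rw [filter_true_of_mem (fun e he => Nat.lt_succ_of_le (le_sup (f := k) he))]
    refine le_trans ?_ (mul_le_mul_of_nonneg_left (le_Mx (K L).one_mem W) (Lam_nonneg _ _ _))
    by_cases h : ∀ e ∈ A, j0 (lay e) ≤ (W (co lay (1 : G) e)).1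
    · have : JJ A π lay j0 (1 : G) W = 0 := by
        unfold JJ
        rw [sum_eq_zero fun e he => by rw [Nat.sub_eq_zero_of_le (h e he)]; simp, neg_zero]
      rw [this, mul_zero]
    · push Not at h
      obtain ⟨e, he, h⟩ := h
      have : Lam (fun i => j0 i.2) (A.image (co lay (1 : G))) W = 0 :=
        prod_eq_zero (mem_image_of_mem _ he) (if_neg (not_le.2 h))
      rw [this, zero_mul]
  linarith [h2 L]

end Crest.Agent.R55
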