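import Mathlib

/-!
Row 55 (second Kahn–Kalai).  Product expectations over a finite environment `ι → α`.
-/

set_option autoImplicit false
set_option linter.unusedSectionVars false

namespace Crest.Agent.R55

open Finset

variable {ι α : Type*} [Fintype ι] [DecidableEq ι] [Fintype α]

/-- Expectation under the product of the weight `w`. -/
noncomputable def Ex (w : α → ℝ) (f : (ι → α) → ℝ) : ℝ := ∑ Y : ι → α, (∏ i, w (Y i)) * f Y

/-- `w` is a probability weight. -/
structure IsW (w : α → ℝ) : Prop where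
  nn : ∀ a, 0 ≤ w a
  one : ∑ a, w a = 1

variable {w : α → ℝ}

lemma IsW.pnn (hw : IsW w) (Y : ι → α) : 0 ≤ ∏ i, w (Y i) := prod_nonneg fun _ _ => hw.nn _

lemma Ex_prod (f : ι → α → ℝ) :
    Ex w (fun Y : ι → α => ∏ i, f i (Y i)) = ∏ i, ∑ a, w a * f i a := by
  unfold Ex
  rw [Finset.prod_univ_sum]
  simp only [Fintype.piFinset_univ, prod_mul_distrib]

lemma Ex_one (hw : IsW w) : Ex w (fun _ : ι → α => (1 : ℝ)) = 1 := by
  have := Ex_prod (ι := ι) (w := w) (fun _ _ => 1)
  simpa [hw.one] using this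

lemma Ex_mono (hw : IsW w) {f g : (ι → α) → ℝ} (h : ∀ Y, f Y ≤ g Y) : Ex w f ≤ Ex w g :=
  sum_le_sum fun Y _ => mul_le_mul_of_nonneg_left (h Y) (hw.pnn Y)

lemma Ex_add (f g : (ι → α) → ℝ) : Ex w (fun Y => f Y + g Y) = Ex w f + Ex w g := by
  simp [Ex, mul_add, sum_add_distrib]

lemma Ex_sub (f g : (ι → α) → ℝ) : Ex w (fun Y => f Y - g Y) = Ex w f - Ex w g := by
  simp [Ex, mul_sub, sum_sub_distrib]

lemma Ex_mul_left (c : ℝ) (f : (ι → α) → ℝ) : Ex w (fun Y => c * f Y) = c * Ex w f := by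
  simp only [Ex, mul_sum]; exact sum_congr rfl fun Y _ => by ring

lemma Ex_mul_right (c : ℝ) (f : (ι → α) → ℝ) : Ex w (fun Y => f Y * c) = Ex w f * c := by
  simp only [Ex, sum_mul]; exact sum_congr rfl fun Y _ => by ring

lemma Ex_const (hw : IsW w) (c : ℝ) : Ex w (fun _ : ι → α => c) = c := by
  have := Ex_mul_left (ι := ι) (w := w) c (fun _ => 1)
  simpa [Ex_one hw] using this

lemma Ex_sum {κ : Type*} (s : Finset κ) (f : κ → (ι → α) → ℝ) :
    Ex w (fun Y => ∑ k ∈ s, f k Y) = ∑ k ∈ s, Ex w (f k) := by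
  simp only [Ex, mul_sum]; exact sum_comm

lemma Ex_nonneg (hw : IsW w) {f : (ι → α) → ℝ} (h : ∀ Y, 0 ≤ f Y) : 0 ≤ Ex w f :=
  sum_nonneg fun Y _ => mul_nonneg (hw.pnn Y) (h Y)

lemma Ex_congr {f g : (ι → α) → ℝ} (h : ∀ Y, f Y = g Y) : Ex w f = Ex w g := by
  rw [funext h]

/-- Mixing two independent samples. -/
lemma Ex_mix (hw : IsW w) (S : Finset ι) (f : (ι → α) → ℝ) :
    Ex w (fun X => Ex w (fun Y => f (S.piecewise Y X))) = Ex w f := by
  have h1 : Ex w f = Ex w (fun X => Ex w (fun _ : ι → α => f X)) :=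
    Ex_congr fun X => (Ex_const hw _).symm
  rw [h1]
  unfold Ex
  simp only [mul_sum]
  rw [← Fintype.sum_prod_type', ← Fintype.sum_prod_type']
  let e : (ι → α) × (ι → α) → (ι → α) × (ι → α) :=
    fun p => (S.piecewise p.2 p.1, S.piecewise p.1 p.2)
  have he : Function.Involutive e := by
    intro p
    ext i <;> by_cases hi : i ∈ S <;> simp [e, hi]
  rw [← Equiv.sum_comp he.toPerm]
  refine sum_congr rfl fun p _ => ?_
  have h2 : S.piecewise (e p).2 (e p).1 = p.1 := congrArg Prod.fst (he p)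
  simp only [Function.Involutive.coe_toPerm, h2]
  rw [← mul_assoc, ← mul_assoc, ← prod_mul_distrib, ← prod_mul_distrib]
  congr 1
  refine prod_congr rfl fun i _ => ?_
  by_cases hi : i ∈ S <;> simp [e, hi, mul_comm]

/-- Resampling one coordinate. -/
lemma Ex_resample (hw : IsW w) (j : ι) (f : (ι → α) → ℝ) :
    Ex w f = ∑ a, w a * Ex w (fun X => f (Function.update X j a)) := by
  have h1 : Ex w f = ∑ a, w a * Ex w f := by rw [← sum_mul, hw.one, one_mul]
  rw [h1]
  unfold Ex
  simp only [mul_sum]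
  rw [← Fintype.sum_prod_type', ← Fintype.sum_prod_type']
  let e : α × (ι → α) → α × (ι → α) := fun p => (p.2 j, Function.update p.2 j p.1)
  have he : Function.Involutive e := by
    intro p
    ext i
    · simp [e]
    · by_cases hi : i = j
      · subst hi; simp [e]
      · simp [e, hi]
  rw [← Equiv.sum_comp he.toPerm]
  refine sum_congr rfl fun p _ => ?_
  simp only [Function.Involutive.coe_toPerm, e]
  rw [← mul_assoc, ← mul_assoc]
  congr 1
  rw [← mul_prod_erase univ (fun i => w (Function.update p.2 j p.1 i)) (mem_univ j),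
    ← mul_prod_erase univ (fun i => w (p.2 i)) (mem_univ j)]
  have : ∏ i ∈ univ.erase j, w (Function.update p.2 j p.1 i) = ∏ i ∈ univ.erase j, w (p.2 i) :=
    prod_congr rfl fun i hi => by rw [Function.update_of_ne (ne_of_mem_erase hi)]
  rw [this]
  simp only [Function.update_self]
  ring

/-- Invariance under permuting the coordinates. -/
lemma Ex_perm (σ : Equiv.Perm ι) (f : (ι → α) → ℝ) :
    Ex w (fun X => f (fun i => X (σ i))) = Ex w f := by
  unfold Ex
  rw [← Equiv.sum_comp (Equiv.arrowCongr σ.symm (Equiv.refl α)) (fun Y => (∏ i, w (Y i)) * f Y)]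
  refine sum_congr rfl fun X _ => ?_
  have : (Equiv.arrowCongr σ.symm (Equiv.refl α)) X = fun i => X (σ i) := by
    ext i; simp
  rw [this, Equiv.prod_comp σ (fun i => w (X i))]

/-- Independence of distinct coordinates. -/
lemma Ex_prod_inj (hw : IsW w) {κ : Type*} [DecidableEq κ] (s : Finset κ) (c : κ → ι)
    (hc : Set.InjOn c s) (f : κ → α → ℝ) :
    Ex w (fun Y : ι → α => ∏ k ∈ s, f k (Y (c k))) = ∏ k ∈ s, ∑ a, w a * f k a := by
  induction s using Finset.induction_on with
  | empty => simpa using Ex_one (ι := ι) hw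
  | insert k s hk ih =>
    have hc' : Set.InjOn c s := hc.mono (by simp)
    rw [Ex_resample hw (c k), prod_insert hk, sum_mul]
    refine sum_congr rfl fun a _ => ?_
    rw [mul_assoc, ← ih hc', ← Ex_mul_left (f k a)]
    congr 1
    refine Ex_congr fun X => ?_
    rw [prod_insert hk, Function.update_self]
    congr 1
    refine prod_congr rfl fun k' hk' => ?_
    rw [Function.update_of_ne]
    intro h
    have := hc (by simp [hk']) (by simp) h
    exact hk (this ▸ hk')

/-- Jensen's inequality for `exp` under a density. -/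
lemma Ex_jensen (hw : IsW w) (Z u : (ι → α) → ℝ) (hZ : ∀ Y, 0 ≤ Z Y) (hZ1 : Ex w Z = 1) :
    Real.exp (Ex w (fun Y => Z Y * u Y)) ≤ Ex w (fun Y => Z Y * Real.exp (u Y)) := by
  set m := Ex w (fun Y => Z Y * u Y) with hm
  have h1 : Ex w (fun Y => Real.exp m * (Z Y + Z Y * u Y - m * Z Y)) ≤
      Ex w (fun Y => Z Y * Real.exp (u Y)) := by
    refine Ex_mono hw fun Y => ?_
    have h2 := Real.add_one_le_exp (u Y - m)
    have h3 : Real.exp (u Y) = Real.exp m * Real.exp (u Y - m) := by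
      rw [← Real.exp_add]; congr 1; ring
    rw [h3]
    have h4 := mul_le_mul_of_nonneg_left h2 (mul_nonneg (Real.exp_pos m).le (hZ Y))
    nlinarith
  rw [Ex_mul_left, Ex_sub, Ex_add, Ex_mul_left, hZ1, ← hm] at h1
  simpa using h1

/-- Cauchy–Schwarz under a density. -/
lemma Ex_cs (hw : IsW w) (R f g : (ι → α) → ℝ) (hR : ∀ Y, 0 ≤ R Y) :
    Ex w (fun Y => R Y * (f Y * g Y)) ^ 2 ≤
      Ex w (fun Y => R Y * f Y ^ 2) * Ex w (fun Y => R Y * g Y ^ 2) := by
  unfold Ex
  refine sum_sq_le_sum_mul_sum_of_sq_le_mul _ (fun Y _ => ?_) (fun Y _ => ?_)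
    (fun Y _ => le_of_eq (by ring))
  · exact mul_nonneg (hw.pnn Y) (mul_nonneg (hR Y) (sq_nonneg _))
  · exact mul_nonneg (hw.pnn Y) (mul_nonneg (hR Y) (sq_nonneg _))

end Crest.Agent.R55
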