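import Crest.Agent.R55.Env

/-!
Row 55.  The truncated geometric law on `Fin (M+1)`: tails, a first moment and the
one-dimensional step of the moment generating function bound.
-/

set_option autoImplicit false
set_option linter.unusedSectionVars false

namespace Crest.Agent.R55

open Finset

/-- Truncated geometric weight: `P(J ≥ j) = 2^{-j}` for `j ≤ M`. -/
noncomputable def gw (M : ℕ) (j : Fin (M + 1)) : ℝ := (1 / 2) ^ (min (j.1 + 1) M)

/-- Expectation of `f J`. -/
noncomputable def GE (M : ℕ) (f : ℕ → ℝ) : ℝ := ∑ j : Fin (M + 1), gw M j * f j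

lemma GE_zero (f : ℕ → ℝ) : GE 0 f = f 0 := by simp [GE, gw]

lemma GE_succ (M : ℕ) (f : ℕ → ℝ) :
    GE (M + 1) f = 1 / 2 * f 0 + 1 / 2 * GE M (fun j => f (j + 1)) := by
  unfold GE
  rw [Fin.sum_univ_succ, mul_sum]
  congr 1
  · simp [gw]
  · refine sum_congr rfl fun j _ => ?_
    have : min (j.1 + 1 + 1) (M + 1) = min (j.1 + 1) M + 1 := by omega
    simp only [gw, Fin.val_succ, this, pow_succ]
    ring

lemma GE_one (M : ℕ) : GE M (fun _ => 1) = 1 := by
  induction M with
  | zero => simp [GE_zero]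
  | succ M ih => rw [GE_succ, ih]; norm_num

lemma gw_isW (M : ℕ) : IsW (gw M) :=
  ⟨fun _ => by unfold gw; positivity, by simpa [GE] using GE_one M⟩

lemma GE_tail (M : ℕ) : ∀ j ≤ M, GE M (fun y => if j ≤ y then (2 : ℝ) ^ j else 0) = 1 := by
  induction M with
  | zero => intro j hj; obtain rfl : j = 0 := by omega
            simp [GE_zero]
  | succ M ih =>
    intro j hj
    rcases j with _ | j
    · simpa using GE_one (M + 1)
    · rw [GE_succ]
      have h := ih j (by omega)
      have h2 : GE M (fun y => if j + 1 ≤ y + 1 then (2 : ℝ) ^ (j + 1) else 0) =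
          2 * GE M (fun y => if j ≤ y then (2 : ℝ) ^ j else 0) := by
        unfold GE
        rw [mul_sum]
        refine sum_congr rfl fun y _ => ?_
        simp only [add_le_add_iff_right]
        split_ifs <;> ring
      rw [h2, h]
      simp

lemma GE_first (M : ℕ) : ∀ j ≤ M, GE M (fun y => (1 / 4 : ℝ) ^ (j - y)) =
    3 / 2 * (1 / 2) ^ j - 1 / 2 * (1 / 4) ^ j := by
  induction M with
  | zero => intro j hj; obtain rfl : j = 0 := by omega
            simp [GE_zero]; norm_num
  | succ M ih =>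
    intro j hj
    rcases j with _ | j
    · have := GE_one (M + 1)
      simp only [zero_tsub, pow_zero, this]; norm_num
    · rw [GE_succ]
      have h := ih j (by omega)
      simp only [Nat.add_sub_add_right, h, tsub_zero, pow_succ]
      ring

lemma key_ineq {D v : ℝ} (hD0 : 0 ≤ D) (hD : D ≤ 1 / 16) (hv0 : 0 ≤ v) (hv : v ≤ 1 / 8) :
    1 / 2 * Real.exp (D - 8 * D ^ 2) + 1 / 2 * (Real.exp D * Real.exp (v - v ^ 2)) ≤
      Real.exp ((D + v / 2) - (D + v / 2) ^ 2) := by
  set a := -8 * D ^ 2 with ha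
  set b := v - v ^ 2 with hb
  have h1 : 1 / 2 * Real.exp (D - 8 * D ^ 2) + 1 / 2 * (Real.exp D * Real.exp b) =
      Real.exp (D + (a + b) / 2) * Real.cosh ((b - a) / 2) := by
    rw [Real.cosh_eq, ← Real.exp_add, mul_div_assoc', mul_add, ← Real.exp_add, ← Real.exp_add]
    have e1 : D + (a + b) / 2 + (b - a) / 2 = D + b := by ring
    have e2 : D + (a + b) / 2 + -((b - a) / 2) = D - 8 * D ^ 2 := by rw [ha]; ring
    rw [e1, e2]; ring
  rw [h1]
  refine (mul_le_mul_of_nonneg_left (Real.cosh_le_exp_half_sq _) (Real.exp_pos _).le).trans ?_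
  rw [← Real.exp_add, Real.exp_le_exp]
  have h2 : 0 ≤ b - a := by rw [ha, hb]; nlinarith
  have h3 : b - a ≤ v + D / 2 := by rw [ha, hb]; nlinarith
  have h4 : (b - a) ^ 2 ≤ (v + D / 2) ^ 2 := pow_le_pow_left₀ h2 h3 2
  have h5 : ((b - a) / 2) ^ 2 / 2 = (b - a) ^ 2 / 8 := by ring
  rw [h5]
  have h6 := sq_nonneg (2 * v - 9 * D)
  have h7 := sq_nonneg D
  rw [ha, hb] at *
  nlinarith

/-- One-dimensional lemma, strengthened for the induction (`m 0` is the previous value). -/
lemma oneD_aux (M : ℕ) : ∀ m : ℕ → ℝ, (∀ j, 0 ≤ m (j + 1) - m j ∧ m (j + 1) - m j ≤ 1 / 16) →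
    (0 ≤ GE M (fun j => m (j + 1) - m 0) ∧ GE M (fun j => m (j + 1) - m 0) ≤ 1 / 8) ∧
    GE M (fun j => Real.exp (m (j + 1) - m 0 - 8 * (m (j + 1) - m j) ^ 2)) ≤
      Real.exp (GE M (fun j => m (j + 1) - m 0) - GE M (fun j => m (j + 1) - m 0) ^ 2) := by
  induction M with
  | zero =>
    intro m hm
    simp only [GE_zero]
    have := hm 0
    refine ⟨⟨this.1, by linarith [this.2]⟩, Real.exp_le_exp.2 ?_⟩
    nlinarith [sq_nonneg (m (0 + 1) - m 0)]
  | succ M ih =>
    intro m hm
    obtain ⟨⟨hv0, hv⟩, hI⟩ := ih (fun j => m (j + 1)) (fun j => hm (j + 1))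
    set v := GE M (fun j => m (j + 1 + 1) - m (0 + 1)) with hvd
    set D := m (0 + 1) - m 0 with hD
    have hu : GE (M + 1) (fun j => m (j + 1) - m 0) = D + v / 2 := by
      rw [GE_succ]
      have : GE M (fun j => m (j + 1 + 1) - m 0) = D * GE M (fun _ => 1) + v := by
        rw [hvd]
        unfold GE
        rw [mul_sum, ← sum_add_distrib]
        exact sum_congr rfl fun j _ => by rw [hD]; ring
      rw [this, GE_one]; ring
    have hD0 := (hm 0).1
    have hD1 := (hm 0).2
    rw [hu]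
    refine ⟨⟨by linarith, by linarith⟩, ?_⟩
    rw [GE_succ]
    have h2 : GE M (fun j => Real.exp (m (j + 1 + 1) - m 0 - 8 * (m (j + 1 + 1) - m (j + 1)) ^ 2)) =
        Real.exp D * GE M (fun j =>
          Real.exp (m (j + 1 + 1) - m (0 + 1) - 8 * (m (j + 1 + 1) - m (j + 1)) ^ 2)) := by
      unfold GE
      rw [mul_sum]
      refine sum_congr rfl fun j _ => ?_
      rw [mul_left_comm, ← Real.exp_add]
      congr 2
      rw [hD]; ring
    rw [h2]
    refine le_trans ?_ (key_ineq hD0 hD1 hv0 hv)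
    have := mul_le_mul_of_nonneg_left hI (Real.exp_pos D).le
    linarith

/-- One-dimensional lemma. -/
lemma oneD (M : ℕ) (m : ℕ → ℝ) (hm : ∀ j, 0 ≤ m (j + 1) - m j ∧ m (j + 1) - m j ≤ 1 / 16) :
    GE M (fun j => Real.exp (m j - 8 * (m j - m (j - 1)) ^ 2)) ≤ Real.exp (GE M m) := by
  obtain ⟨_, h⟩ := oneD_aux M (fun j => m (j - 1)) (fun j => by
    rcases j with _ | j
    · simp
    · simpa using hm j)
  simp only [add_tsub_cancel_right, zero_tsub] at h
  have h1 : GE M (fun j => Real.exp (m j - 8 * (m j - m (j - 1)) ^ 2)) =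
      Real.exp (m 0) * GE M (fun j => Real.exp (m j - m 0 - 8 * (m j - m (j - 1)) ^ 2)) := by
    unfold GE
    rw [mul_sum]
    refine sum_congr rfl fun j _ => ?_
    rw [mul_left_comm, ← Real.exp_add]
    congr 2
    ring
  have h2 : GE M m = m 0 * GE M (fun _ => 1) + GE M (fun j => m j - m 0) := by
    unfold GE
    rw [mul_sum, ← sum_add_distrib]
    exact sum_congr rfl fun j _ => by ring
  rw [h1, h2, GE_one, mul_one, Real.exp_add]
  refine mul_le_mul_of_nonneg_left (h.trans (Real.exp_le_exp.2 ?_)) (Real.exp_pos _).le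
  nlinarith [sq_nonneg (GE M (fun j => m j - m 0))]

end Crest.Agent.R55
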