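import Crest.Agent.R55.Geo

/-!
Row 55.  One-sided moment generating function bound for products of truncated geometric laws.
-/

set_option autoImplicit false
set_option linter.unusedSectionVars false

namespace Crest.Agent.R55

open Finset

variable {ι : Type*} [Fintype ι] [DecidableEq ι]

/-- Positive part of a difference of heights. -/
def dd {M : ℕ} (u v : Fin (M + 1)) : ℝ := ((u.1 - v.1 : ℕ) : ℝ)

lemma dd_self {M : ℕ} (u : Fin (M + 1)) : dd u u = 0 := by simp [dd]

lemma dd_nonneg {M : ℕ} (u v : Fin (M + 1)) : 0 ≤ dd u v := Nat.cast_nonneg _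

/-- Clamp. -/
def cl (M : ℕ) (n : ℕ) : Fin (M + 1) := ⟨min n M, by omega⟩

lemma cl_val {M : ℕ} (u : Fin (M + 1)) : cl M u.1 = u := by
  ext; have := u.2; simp only [cl]; omega

lemma sum_upd {M : ℕ} {S : Finset ι} {j : ι} (hj : j ∉ S) (b : ι → ℝ) (X X' : ι → Fin (M + 1))
    (y y' : Fin (M + 1)) :
    ∑ i ∈ insert j S, b i * dd (Function.update X' j y' i) (Function.update X j y i) =
      b j * dd y' y + ∑ i ∈ S, b i * dd (X' i) (X i) := by
  rw [sum_insert hj, Function.update_self, Function.update_self]
  congr 1
  refine sum_congr rfl fun i hi => ?_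
  have : i ≠ j := fun h => hj (h ▸ hi)
  rw [Function.update_of_ne this, Function.update_of_ne this]

theorem mgf_two (M : ℕ) (S : Finset ι) :
    ∀ (N h : (ι → Fin (M + 1)) → ℝ) (a : (ι → Fin (M + 1)) → ι → ℝ),
      (∀ X i, 0 ≤ a X i) →
      (∀ X X', N X' - ∑ i ∈ S, 1 / 16 * dd (X' i) (X i) ≤ N X) →
      (∀ X X', h X' - ∑ i ∈ S, a X' i * dd (X' i) (X i) ≤ N X) →
      Ex (gw M) (fun X => Real.exp (h X - 8 * ∑ i ∈ S, a X i ^ 2)) ≤ Real.exp (Ex (gw M) N) := by
  have hw := gw_isW M
  induction S using Finset.induction_on with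
  | empty =>
    intro N h a _ _ hR
    refine (Ex_mono hw fun X' => ?_).trans (Ex_const hw (Real.exp (Ex (gw M) N))).le
    simp only [sum_empty, mul_zero, sub_zero] at hR ⊢
    refine Real.exp_le_exp.2 ?_
    rw [← Ex_const (ι := ι) hw (h X')]
    exact Ex_mono hw fun X => hR X X'
  | insert j S hj ih =>
    intro N h a ha hL hR
    set m : ℕ → ℝ := fun n => Ex (gw M) (fun X => N (Function.update X j (cl M n))) with hm
    have hcmp : ∀ y y' : Fin (M + 1), Ex (gw M) (fun X => N (Function.update X j y')) -
        1 / 16 * dd y' y ≤ Ex (gw M) (fun X => N (Function.update X j y)) := by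
      intro y y'
      rw [← Ex_const (ι := ι) hw (1 / 16 * dd y' y), ← Ex_sub]
      refine Ex_mono hw fun X => ?_
      have := hL (Function.update X j y) (Function.update X j y')
      rw [sum_upd hj (fun _ => 1 / 16)] at this
      simpa [dd_self] using this
    have hD : ∀ n, 0 ≤ m (n + 1) - m n ∧ m (n + 1) - m n ≤ 1 / 16 := by
      intro n
      have h1 := hcmp (cl M (n + 1)) (cl M n)
      have h2 := hcmp (cl M n) (cl M (n + 1))
      have h3 : dd (cl M n) (cl M (n + 1)) = 0 := by
        simp only [dd, cl, Nat.cast_eq_zero]; omega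
      have h4 : dd (cl M (n + 1)) (cl M n) ≤ 1 := by
        simp only [dd, cl, Nat.cast_le_one]; omega
      rw [h3] at h1
      constructor <;> simp only [hm] <;> linarith
    have hD' : ∀ n, 0 ≤ m n - m (n - 1) ∧ m n - m (n - 1) ≤ 1 / 16 := by
      intro n
      rcases n with _ | n
      · simp
      · simpa using hD n
    have hN : Ex (gw M) N = GE M m := by
      rw [Ex_resample hw j]
      exact sum_congr rfl fun y _ => by simp only [hm, cl_val]
    rw [hN, Ex_resample hw j]
    refine le_trans (sum_le_sum fun y _ => mul_le_mul_of_nonneg_left ?_ (hw.nn y)) (oneD M m hD)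
    set D := m y - m (y - 1) with hDd
    set l := 16 * D with hl
    have hl0 : 0 ≤ l := by have := (hD' y).1; rw [hl]; linarith
    have hl1 : l ≤ 1 := by have := (hD' y).2; rw [hl]; linarith
    set y' := cl M (y - 1) with hy'
    have hdy : dd y y' ≤ 1 := by
      have := y.2
      simp only [hy', dd, cl, Nat.cast_le_one]; omega
    have key := ih (fun X => (1 - l) * N (Function.update X j y) + l * N (Function.update X j y'))
      (fun X => h (Function.update X j y) - 8 * a (Function.update X j y) j ^ 2 - l ^ 2 / 32)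
      (fun X => a (Function.update X j y)) (fun X i => ha _ i)
      (fun X X' => by
        have h1 := hL (Function.update X j y) (Function.update X' j y)
        have h2 := hL (Function.update X j y') (Function.update X' j y')
        rw [sum_upd hj (fun _ => 1 / 16), dd_self] at h1 h2
        have h3 := mul_le_mul_of_nonneg_left h1 (sub_nonneg.2 hl1)
        have h4 := mul_le_mul_of_nonneg_left h2 hl0
        nlinarith)
      (fun X X' => by
        have h1 := hR (Function.update X j y) (Function.update X' j y)
        have h2 := hR (Function.update X j y') (Function.update X' j y)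
        rw [sum_upd hj, dd_self] at h1
        rw [sum_upd hj] at h2
        have h3 := mul_le_mul_of_nonneg_left h1 (sub_nonneg.2 hl1)
        have h4 := mul_le_mul_of_nonneg_left h2 hl0
        have h5 := ha (Function.update X' j y) j
        set b := a (Function.update X' j y) j
        have h6 : l * (b * dd y y') ≤ l * b :=
          mul_le_mul_of_nonneg_left (mul_le_of_le_one_right h5 hdy) hl0
        have h7 := sq_nonneg (16 * b - l)
        nlinarith)
    rw [Ex_add, Ex_mul_left, Ex_mul_left] at key
    have e1 : Ex (gw M) (fun X => N (Function.update X j y)) = m y := by simp only [hm, cl_val]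
    have e2 : Ex (gw M) (fun X => N (Function.update X j y')) = m (y - 1) := rfl
    rw [e1, e2] at key
    have e3 : Ex (gw M) (fun X => Real.exp (h (Function.update X j y) -
        8 * ∑ i ∈ insert j S, a (Function.update X j y) i ^ 2)) =
        Real.exp (l ^ 2 / 32) * Ex (gw M) (fun X => Real.exp (h (Function.update X j y) -
          8 * a (Function.update X j y) j ^ 2 - l ^ 2 / 32 -
          8 * ∑ i ∈ S, a (Function.update X j y) i ^ 2)) := by
      rw [← Ex_mul_left]
      refine Ex_congr fun X => ?_
      rw [← Real.exp_add, sum_insert hj]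
      congr 1; ring
    rw [e3]
    refine (mul_le_mul_of_nonneg_left key (Real.exp_pos _).le).trans ?_
    rw [← Real.exp_add]
    refine le_of_eq (congrArg Real.exp ?_)
    have : m (y - 1) = m y - D := by rw [hDd]; ring
    rw [this, hl]; ring

/-- Upper-tail moment generating function bound. -/
theorem mgf (M : ℕ) (S : Finset ι) (N : (ι → Fin (M + 1)) → ℝ) (V : ℝ)
    (hN : ∀ X', ∃ a : ι → ℝ, (∀ i, 0 ≤ a i ∧ a i ≤ 1 / 16) ∧ ∑ i ∈ S, a i ^ 2 ≤ V ∧
      ∀ X, N X' - ∑ i ∈ S, a i * dd (X' i) (X i) ≤ N X) :
    Ex (gw M) (fun X => Real.exp (N X - Ex (gw M) N)) ≤ Real.exp (8 * V) := by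
  have hw := gw_isW M
  choose a ha hV hR using hN
  have key := mgf_two M S N N a (fun X i => (ha X i).1) (fun X X' => by
    refine le_trans ?_ (hR X' X)
    have : ∑ i ∈ S, a X' i * dd (X' i) (X i) ≤ ∑ i ∈ S, 1 / 16 * dd (X' i) (X i) :=
      sum_le_sum fun i _ => mul_le_mul_of_nonneg_right (ha X' i).2 (dd_nonneg _ _)
    linarith) (fun X X' => hR X' X)
  calc Ex (gw M) (fun X => Real.exp (N X - Ex (gw M) N))
      ≤ Ex (gw M) (fun X => Real.exp (8 * V - Ex (gw M) N) *
          Real.exp (N X - 8 * ∑ i ∈ S, a X i ^ 2)) := by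
        refine Ex_mono hw fun X => ?_
        rw [← Real.exp_add, Real.exp_le_exp]
        have := hV X
        linarith
    _ ≤ Real.exp (8 * V - Ex (gw M) N) * Real.exp (Ex (gw M) N) := by
        rw [Ex_mul_left]
        exact mul_le_mul_of_nonneg_left key (Real.exp_pos _).le
    _ = _ := by rw [← Real.exp_add]; congr 1; ring

end Crest.Agent.R55
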