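import Crest.Agent.R55.Core

/-!
Row 55.  The abstract spread theorem: if every subset of `H` has an orbit of size at least
`q^{-|T|}/2`, then the translates of `H` are `2^58 q`-spread.
-/

set_option autoImplicit false
set_option linter.unusedSectionVars false

namespace Crest.Agent.R55

open Finset

variable {G Ω : Type*} [Group G] [Fintype G] [Fintype Ω] [DecidableEq Ω] [MulAction G Ω]

lemma orbit_bound (T : Finset Ω) (q : ℝ) (hq : 0 < q)
    (h : 1 / 2 ≤ ((univ.image (fun g : G => T.image (g • ·))).card : ℝ) * q ^ T.card) :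
    -Real.log (2 * q) * T.card ≤ lg (⊤ : Subgroup G) - lg (St G (col (fun _ => 0) T)) := by
  classical
  rcases T.eq_empty_or_nonempty with rfl | hT
  · simpa using lg_mono le_top
  set S := St G (col (fun _ => 0) T) with hS
  have h1 : Nat.card S * (univ.image (fun g : G => T.image (g • ·))).card ≤
      (univ : Finset G).card := by
    refine mul_card_image_le_card _ _ fun a ha => ?_
    obtain ⟨g0, _, rfl⟩ := mem_image.1 ha
    rw [← Nat.card_eq_finsetCard]
    refine Nat.card_le_card_of_injective (fun h : S => (⟨g0 * h.1, ?_⟩ :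
      (univ.filter (fun g : G => T.image (g • ·) = T.image (g0 • ·))))) ?_
    · refine mem_filter.2 ⟨mem_univ _, eq_of_subset_of_card_le (fun y hy => ?_) ?_⟩
      · obtain ⟨x, hx, rfl⟩ := mem_image.1 hy
        exact mem_image.2 ⟨h.1 • x, (mem_St_col.1 h.2 x).1.2 hx, (mul_smul _ _ _).symm⟩
      · rw [card_image_of_injective _ (MulAction.injective _),
          card_image_of_injective _ (MulAction.injective _)]
    · intro a b hab
      exact Subtype.ext (mul_left_cancel (congrArg Subtype.val hab))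
  set O : ℝ := ((univ.image (fun g : G => T.image (g • ·))).card : ℝ) with hO
  have h2 : (Nat.card S : ℝ) * O ≤ Nat.card (⊤ : Subgroup G) := by
    rw [Subgroup.card_top, Nat.card_eq_fintype_card (α := G), ← card_univ, hO]
    exact_mod_cast h1
  have hO0 : 0 ≤ O := Nat.cast_nonneg _
  have h3 : 1 ≤ O * (2 * q) ^ T.card := by
    have : (2 : ℝ) ^ 1 ≤ 2 ^ T.card := pow_le_pow_right₀ (by norm_num) hT.card_pos
    have h4 : 0 ≤ O * q ^ T.card := by positivity
    rw [mul_pow]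
    nlinarith
  have h4 : (Nat.card S : ℝ) ≤ Nat.card (⊤ : Subgroup G) * (2 * q) ^ T.card := by
    have := mul_le_mul_of_nonneg_right h2 (show (0 : ℝ) ≤ (2 * q) ^ T.card by positivity)
    have h5 := mul_le_mul_of_nonneg_left h3 (card_pos' S).le
    nlinarith
  have h5 := Real.log_le_log (card_pos' S) h4
  rw [Real.log_mul (card_pos' _).ne' (by positivity), Real.log_pow] at h5
  unfold lg
  linarith

lemma sum_layers (N : ℕ) : ∑ d ∈ range N, ((d : ℝ) + 1) * (8 / 9) ^ d ≤ 81 := by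
  have h : ∀ N : ℕ, ∑ d ∈ range N, ((d : ℝ) + 1) * (8 / 9) ^ d = 81 - (9 * N + 81) * (8 / 9) ^ N := by
    intro N
    induction N with
    | zero => simp
    | succ N ih => rw [sum_range_succ, ih]; push_cast; ring
  rw [h]
  have : (0 : ℝ) ≤ (9 * N + 81) * (8 / 9) ^ N := by positivity
  linarith

/-- Construction of the layers. -/
lemma exists_layers (A : Finset Ω) (k t : Ω → ℕ) (hkt : ∀ e ∈ A, k e < t e) (q : ℝ) (hq : 0 < q)
    (hq1 : 2 ^ 24 * q ≤ 1) :
    ∃ (N : ℕ) (lay : Ω → Σ d : Fin (N + 1), Fin (d + 1)) (j0 : (Σ d : Fin (N + 1), Fin (d + 1)) → ℕ)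
      (act : ℕ → (Σ d : Fin (N + 1), Fin (d + 1)) → Prop),
      IsLay A k t (-Real.log (2 * q)) lay j0 act ∧ ∑ l, (1 / 2 : ℝ) ^ j0 l ≤ 81 * (2 ^ 25 * q) := by
  have hJ : ∀ d : ℕ, ∃ n : ℕ, (1 / 2 : ℝ) ^ (n + 1) < 2 ^ 24 * q * (8 / 9) ^ d ∧
      2 ^ 24 * q * (8 / 9) ^ d ≤ (1 / 2 : ℝ) ^ n := fun d =>
    exists_nat_pow_near_of_lt_one (by positivity)
      (mul_le_one₀ hq1 (by positivity) (pow_le_one₀ (by norm_num) (by norm_num)))
      (by norm_num) (by norm_num)
  choose J hJ1 hJ2 using hJ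
  set N := A.sup t with hN
  let mk : ℕ → ℕ → Σ d : Fin (N + 1), Fin (d + 1) := fun a b =>
    ⟨⟨min (a - b - 1) N, by omega⟩, ⟨b % (min (a - b - 1) N + 1), Nat.mod_lt _ (by omega)⟩⟩
  have hmin : ∀ e ∈ A, min (t e - k e - 1) N = t e - k e - 1 := fun e he => by
    have : t e ≤ N := le_sup (f := t) he
    omega
  refine ⟨N, fun e => mk (t e) (k e), fun l => J l.1, fun s l => s % (l.1 + 1) = l.2,
    ⟨fun e _ => rfl, fun e he s h1 h2 => ?_, fun e _ e' _ h1 h2 => by rw [h1, h2],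
      fun e he => ?_⟩, ?_⟩
  · change s % (min (t e - k e - 1) N + 1) = k e % (min (t e - k e - 1) N + 1) at h1
    rw [hmin e he] at h1
    have h3 := Nat.le_of_dvd (by omega) ((Nat.modEq_iff_dvd' h2.le).1 h1.symm)
    have := hkt e he
    omega
  · change (2 : ℝ) ^ J (min (t e - k e - 1) N) * _ ≤ _
    rw [hmin e he, neg_neg, Real.exp_log (by positivity)]
    set d := t e - k e - 1
    have h1 := mul_le_mul_of_nonneg_left (hJ2 d)
      (show (0 : ℝ) ≤ 2 ^ J d * (9 / 8) ^ d * (1 / 2) ^ 23 by positivity)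
    have h2 : (2 : ℝ) ^ J d * (1 / 2) ^ J d = 1 := by rw [← mul_pow]; norm_num
    have h3 : (9 / 8 : ℝ) ^ d * (8 / 9) ^ d = 1 := by rw [← mul_pow]; norm_num
    calc (2 : ℝ) ^ J d * (2 * q) = 2 ^ J d * (2 * q) * ((9 / 8 : ℝ) ^ d * (8 / 9) ^ d) := by
          rw [h3, mul_one]
      _ = 2 ^ J d * (9 / 8) ^ d * (1 / 2) ^ 23 * (2 ^ 24 * q * (8 / 9) ^ d) := by ring
      _ ≤ _ := h1
      _ = (1 / 2) ^ 23 * (9 / 8) ^ d * ((2 : ℝ) ^ J d * (1 / 2) ^ J d) := by ring
      _ = _ := by rw [h2, mul_one]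
  · rw [Fintype.sum_sigma]
    simp only [sum_const, card_univ, Fintype.card_fin, nsmul_eq_mul]
    rw [Fin.sum_univ_eq_sum_range (fun d => ((d + 1 : ℕ) : ℝ) * (1 / 2) ^ J d)]
    refine le_trans ?_ (mul_le_mul_of_nonneg_right (sum_layers (N + 1)) (by positivity))
    rw [sum_mul]
    refine sum_le_sum fun d _ => ?_
    have h1 := hJ1 d
    rw [pow_succ] at h1
    push_cast
    rw [mul_assoc]
    refine mul_le_mul_of_nonneg_left ?_ (by positivity)
    linarith

lemma first_moment {Λ : Type*} [Fintype Λ] [DecidableEq Λ] {M : ℕ} (j0 : Λ → ℕ)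
    (hj : ∀ l, j0 l ≤ M) (F : Finset Ω) (g : G) :
    Ex (gw M) (fun W : Ω × Λ → Fin (M + 1) =>
      ∏ x ∈ F, ∑ l, (1 / 4 : ℝ) ^ (j0 l - (W (g • x, l)).1)) ≤
      (3 / 2 * ∑ l, (1 / 2 : ℝ) ^ j0 l) ^ F.card := by
  have h1 : ∀ W : Ω × Λ → Fin (M + 1), ∏ x ∈ F, ∑ l, (1 / 4 : ℝ) ^ (j0 l - (W (g • x, l)).1) =
      ∑ lam ∈ Fintype.piFinset (fun _ : F => (univ : Finset Λ)),
        ∏ x : F, (1 / 4 : ℝ) ^ (j0 (lam x) - (W (g • x.1, lam x)).1) := by
    intro W
    rw [← prod_coe_sort F, prod_univ_sum]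
  rw [Ex_congr h1, Ex_sum]
  have h2 : ∀ lam : F → Λ, Ex (gw M) (fun W : Ω × Λ → Fin (M + 1) =>
      ∏ x : F, (1 / 4 : ℝ) ^ (j0 (lam x) - (W (g • x.1, lam x)).1)) =
      ∏ x : F, GE M (fun y => (1 / 4 : ℝ) ^ (j0 (lam x) - y)) := fun lam =>
    Ex_prod_inj (gw_isW M) univ (fun x : F => (g • x.1, lam x))
      (fun x _ y _ h => Subtype.ext (MulAction.injective g (congrArg Prod.fst h)))
      (fun x (y : Fin (M + 1)) => (1 / 4 : ℝ) ^ (j0 (lam x) - y.1))
  rw [sum_congr rfl fun lam _ => h2 lam,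
    ← prod_univ_sum (fun _ : F => (univ : Finset Λ))
      (fun _ l => GE M (fun y => (1 / 4 : ℝ) ^ (j0 l - y))), prod_const, card_univ,
    Fintype.card_coe, mul_sum]
  refine pow_le_pow_left₀ (sum_nonneg fun l _ => sum_nonneg fun y _ =>
    mul_nonneg ((gw_isW M).nn y) (by positivity)) (sum_le_sum fun l _ => ?_) _
  refine (GE_first M _ (hj l)).le.trans ?_
  have : (0 : ℝ) ≤ (1 / 4) ^ j0 l := by positivity
  linarith

lemma jensen_fin {κ : Type*} (s : Finset κ) (hs : s.Nonempty) (u : κ → ℝ) :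
    s.card * Real.exp ((∑ i ∈ s, u i) / s.card) ≤ ∑ i ∈ s, Real.exp (u i) := by
  set m := (∑ i ∈ s, u i) / s.card with hm
  have hc : (0 : ℝ) < s.card := by exact_mod_cast hs.card_pos
  have h1 : ∑ i ∈ s, Real.exp m * (u i - m + 1) ≤ ∑ i ∈ s, Real.exp (u i) := by
    refine sum_le_sum fun i _ => ?_
    have : Real.exp (u i) = Real.exp m * Real.exp (u i - m) := by
      rw [← Real.exp_add]; congr 1; ring
    rw [this]
    exact mul_le_mul_of_nonneg_left (Real.add_one_le_exp _) (Real.exp_pos _).le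
  refine le_of_eq_of_le ?_ h1
  rw [← mul_sum, sum_add_distrib, sum_sub_distrib, sum_const, sum_const, nsmul_eq_mul, nsmul_eq_mul,
    hm, mul_div_cancel₀ _ hc.ne']
  ring

theorem spread_main (H : Finset Ω) (q : ℝ) (hq : 0 < q)
    (horb : ∀ T ⊆ H, 1 / 2 ≤ ((univ.image (fun g : G => T.image (g • ·))).card : ℝ) * q ^ T.card)
    (F : Finset Ω) :
    ((univ.filter (fun g : G => ∀ x ∈ F, g • x ∈ H)).card : ℝ) ≤
      Fintype.card G * (2 ^ 58 * q) ^ F.card := by
  classical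
  set 𝒢 := univ.filter (fun g : G => ∀ x ∈ F, g • x ∈ H) with h𝒢
  rcases 𝒢.eq_empty_or_nonempty with h0 | hne
  · rw [h0, card_empty, Nat.cast_zero]; positivity
  by_cases hq1 : ¬ 2 ^ 24 * q ≤ 1
  · have h1 : (𝒢.card : ℝ) ≤ Fintype.card G := by exact_mod_cast card_le_univ _
    refine h1.trans (le_mul_of_one_le_right (Nat.cast_nonneg _) (one_le_pow₀ ?_))
    push Not at hq1
    nlinarith
  rw [not_not] at hq1
  have hc : (0 : ℝ) < 𝒢.card := by exact_mod_cast hne.card_pos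
  set π : Ω → ℝ := fun e => (∑ g ∈ 𝒢, ∑ x ∈ F, if g • x = e then (1 : ℝ) else 0) / 𝒢.card with hπ
  have hnn : ∀ (g : G) e, 0 ≤ ∑ x ∈ F, if g • x = e then (1 : ℝ) else 0 := fun g e =>
    sum_nonneg fun x _ => by split_ifs <;> norm_num
  have hπ0 : ∀ e, 0 ≤ π e := fun e => div_nonneg (sum_nonneg fun g _ => hnn g e) hc.le
  have hπ1 : ∀ e, π e ≤ 1 := by
    intro e
    simp only [hπ]
    rw [div_le_one hc]
    refine le_trans (sum_le_card_nsmul _ _ 1 fun g _ => ?_) (by simp)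
    simp only [smul_eq_iff_eq_inv_smul, sum_ite_eq']
    split_ifs <;> norm_num
  set A := univ.filter (fun e => 0 < π e) with hA
  have hAH : A ⊆ H := by
    intro e he
    by_contra h
    have h1 := (mem_filter.1 he).2
    simp only [hπ] at h1
    rw [sum_eq_zero, zero_div] at h1
    · exact lt_irrefl _ h1
    · intro g hg
      refine sum_eq_zero fun x hx => if_neg fun h2 => h ?_
      exact h2 ▸ (mem_filter.1 hg).2 x hx
  have hsum : ∀ u : Ω → ℝ, ∑ e ∈ A, π e * u e = (∑ g ∈ 𝒢, ∑ x ∈ F, u (g • x)) / 𝒢.card := by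
    intro u
    rw [sum_subset (subset_univ A) (fun e _ he => by
      have : π e = 0 := le_antisymm (not_lt.1 fun h => he (mem_filter.2 ⟨mem_univ _, h⟩)) (hπ0 e)
      rw [this, zero_mul])]
    simp only [hπ, div_mul_eq_mul_div, ← sum_div, sum_mul]
    congr 1
    rw [sum_comm]
    refine sum_congr rfl fun g _ => ?_
    rw [sum_comm]
    refine sum_congr rfl fun x _ => ?_
    simp
  have hk : ∀ e, ∃ n : ℕ, e ∈ A → (1 / 2 : ℝ) ^ (n + 1) ≤ π e ∧ π e ≤ (1 / 2) ^ n := by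
    intro e
    by_cases he : e ∈ A
    · obtain ⟨n, h1, h2⟩ := exists_nat_pow_near_of_lt_one (y := (1 / 2 : ℝ)) (mem_filter.1 he).2
        (hπ1 e) (by norm_num) (by norm_num)
      exact ⟨n, fun _ => ⟨h1.le, h2⟩⟩
    · exact ⟨0, fun h => absurd h he⟩
  choose k hk using hk
  obtain ⟨t, K, c1, c2, c3, c4, c5, c6⟩ := chain G A k (-Real.log (2 * q))
  have hC : IsChain A k (-Real.log (2 * q)) t K :=
    ⟨c1, c2, c3, c4, c5, c6, fun T hT => orbit_bound T q hq (horb T (hT.trans hAH))⟩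
  obtain ⟨N, lay, j0, act, hL, hp⟩ := exists_layers A k t c3 q hq hq1
  set M := univ.sup j0 with hM
  have hj : ∀ l, j0 l ≤ M := fun l => le_sup (f := j0) (mem_univ l)
  have hw := gw_isW M
  have hcore := core (π := π) hC hL hj hk
  have hf : ∑ e ∈ A, π e = F.card := by
    have := hsum (fun _ => 1)
    simp only [mul_one, sum_const, nsmul_eq_mul] at this
    rw [this, mul_div_cancel_left₀ _ hc.ne']
  rw [hf] at hcore
  have l4 : 0 ≤ Real.log 4 := Real.log_nonneg (by norm_num)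
  have low : ∀ W : _ → Fin (M + 1), 𝒢.card * Real.exp (Real.log 4 * Mx A π lay j0 (⊤ : Subgroup G) W) ≤
      ∑ g : G, ∏ x ∈ F, ∑ l, (1 / 4 : ℝ) ^ (j0 l - (W (g • x, l)).1) := by
    intro W
    obtain ⟨g0, _, e⟩ := exists_Mx (A := A) (π := π) (lay := lay) (j0 := j0) (⊤ : Subgroup G) W
    rw [e, ← Equiv.sum_comp (Equiv.mulLeft g0)]
    refine le_trans ?_ (sum_le_sum_of_subset_of_nonneg (subset_univ 𝒢) fun g _ _ =>
      prod_nonneg fun x _ => sum_nonneg fun l _ => by positivity)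
    have h1 := jensen_fin 𝒢 hne (fun g => ∑ x ∈ F,
      -Real.log 4 * ((j0 (lay (g • x)) - (W (co lay g0 (g • x))).1 : ℕ) : ℝ))
    refine le_trans (le_of_eq ?_) (h1.trans (sum_le_sum fun g _ => ?_))
    · congr 2
      unfold JJ
      rw [hsum]
      simp only [← mul_sum]
      ring
    · rw [Real.exp_sum]
      refine prod_le_prod (fun x _ => (Real.exp_pos _).le) fun x _ => ?_
      refine le_trans (le_of_eq ?_) (single_le_sum
        (f := fun l => (1 / 4 : ℝ) ^ (j0 l - (W ((Equiv.mulLeft g0 g) • x, l)).1))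
        (fun l _ => by positivity) (mem_univ (lay (g • x))))
      rw [mul_comm, Real.exp_nat_mul, Real.exp_neg, Real.exp_log (by norm_num), one_div]
      simp [co, mul_smul]
  have h1 := Ex_mono hw low
  rw [Ex_mul_left, Ex_sum] at h1
  have h2 := Ex_jensen hw (fun _ => 1) (fun W => Real.log 4 * Mx A π lay j0 (⊤ : Subgroup G) W)
    (fun _ => zero_le_one) (Ex_one hw)
  simp only [one_mul] at h2
  rw [Ex_mul_left] at h2
  have h3 : ((1 / 2 : ℝ) ^ 26) ^ F.card ≤
      Real.exp (Real.log 4 * Ex (gw M) (Mx A π lay j0 (⊤ : Subgroup G))) := by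
    refine le_trans (le_of_eq ?_) (Real.exp_le_exp.2 (mul_le_mul_of_nonneg_left hcore l4))
    have : Real.log 4 * -(13 * (F.card : ℝ)) = F.card * ((13 : ℕ) * -Real.log 4) := by
      push_cast; ring
    rw [this, Real.exp_nat_mul, Real.exp_nat_mul, Real.exp_neg, Real.exp_log (by norm_num)]
    norm_num
  have h4 : ∑ g : G, Ex (gw M) (fun W : _ → Fin (M + 1) =>
      ∏ x ∈ F, ∑ l, (1 / 4 : ℝ) ^ (j0 l - (W (g • x, l)).1)) ≤
      Fintype.card G * (2 ^ 32 * q) ^ F.card := by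
    rw [← nsmul_eq_mul, ← card_univ]
    refine sum_le_card_nsmul _ _ _ fun g _ => (first_moment j0 hj F g).trans ?_
    refine pow_le_pow_left₀ (by positivity) ?_ _
    nlinarith
  have h5 := (mul_le_mul_of_nonneg_left (h3.trans h2) hc.le).trans (h1.trans h4)
  have h6 : (2 ^ 32 * q) ^ F.card = (2 ^ 58 * q) ^ F.card * ((1 / 2 : ℝ) ^ 26) ^ F.card := by
    rw [← mul_pow]; congr 1; ring
  rw [h6, ← mul_assoc] at h5
  exact le_of_mul_le_mul_right h5 (by positivity)

end Crest.Agent.R55
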