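import Crest.Agent.R55.Thresh
import Crest.Prelude.Def_RandomGraph

/-!
Row 55.  From graphs to the action of the symmetric group on edge slots.
-/

set_option autoImplicit false
set_option linter.unusedSectionVars false

namespace Crest.Agent.R55

open Finset Crest.CombinatoricsR.RandomGraph Crest.FinProb Crest.Agent.R63

instance slotAction (n : ℕ) : MulAction (Equiv.Perm (Fin n)) (EdgeSlot n) where
  smul σ z := ⟨z.1.map σ, fun h => z.2 ((Sym2.isDiag_map σ.injective).1 h)⟩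
  one_smul z := Subtype.ext (by
    change z.1.map (1 : Equiv.Perm (Fin n)) = z.1
    simp)
  mul_smul a b z := Subtype.ext (by
    change z.1.map (a * b : Equiv.Perm (Fin n)) = (z.1.map b).map a
    rw [Sym2.map_map]; rfl)

variable {n : ℕ}

lemma smul_val (σ : Equiv.Perm (Fin n)) (z : EdgeSlot n) : (σ • z).1 = z.1.map σ := rfl

lemma graphOf_adj (ω : EdgeSlot n → Bool) (a b : Fin n) :
    (graphOf ω).Adj a b ↔ ∃ z : EdgeSlot n, z.1 = s(a, b) ∧ ω z = true := by
  unfold graphOf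
  rw [SimpleGraph.fromEdgeSet_adj]
  constructor
  · rintro ⟨⟨h, h'⟩, _⟩
    exact ⟨⟨_, h⟩, rfl, h'⟩
  · rintro ⟨⟨z, hz⟩, rfl, h⟩
    exact ⟨⟨hz, h⟩, by simpa using hz⟩

lemma prob_sub (p : ℝ) (hp0 : 0 ≤ p) (hp1 : p ≤ 1) (S : Finset (EdgeSlot n)) :
    ∑ ω : EdgeSlot n → Bool, bernoulliWeight p ω * (if ∀ z ∈ S, ω z = true then (1 : ℝ) else 0) =
      p ^ S.card := by
  have h := Ex_prod_inj (ι := EdgeSlot n) (w := fun b : Bool => if b then p else 1 - p)
    ⟨fun b => by cases b <;> simp [hp0, hp1], by simp⟩ S (fun z => z) (fun _ _ _ _ h => h)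
    (fun _ b => if b = true then (1 : ℝ) else 0)
  have h2 : ∏ _k ∈ S, ∑ a : Bool, (if a = true then p else 1 - p) *
      (if a = true then (1 : ℝ) else 0) = p ^ S.card := by simp
  rw [← h2, ← h]
  refine sum_congr rfl fun ω _ => ?_
  beta_reduce
  rw [prod_ite_zero, prod_const_one]
  congr 1
  convert rfl

variable {W : Type} [Fintype W] [DecidableEq W]

open Classical in
/-- The edge slots of the image of `H` under `ι`. -/
noncomputable def slots (H : SimpleGraph W) (ι : W → Fin n) : Finset (EdgeSlot n) :=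
  univ.filter (fun z => ∃ u v, H.Adj u v ∧ z.1 = s(ι u, ι v))

lemma mem_slots {H : SimpleGraph W} {ι : W → Fin n} {z : EdgeSlot n} :
    z ∈ slots H ι ↔ ∃ u v, H.Adj u v ∧ z.1 = s(ι u, ι v) := by simp [slots]

lemma card_slots (H : SimpleGraph W) [DecidableRel H.Adj] (ι : W → Fin n) :
    (slots H ι).card ≤ H.edgeFinset.card := by
  rw [← card_image_of_injective (slots H ι) Subtype.val_injective]
  refine le_trans (card_le_card fun z hz => ?_) (card_image_le (f := Sym2.map ι))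
  obtain ⟨y, hy, rfl⟩ := mem_image.1 hz
  obtain ⟨u, v, h, e⟩ := mem_slots.1 hy
  exact mem_image.2 ⟨s(u, v), by simpa using h, by rw [e]; rfl⟩

/-- The subgraph of `H` spanned by a set of slots. -/
def subOf (H : SimpleGraph W) (ι : W → Fin n) (T : Finset (EdgeSlot n)) : H.Subgraph where
  verts := {u | ∃ v, H.Adj u v ∧ ∃ z ∈ T, z.1 = s(ι u, ι v)}
  Adj u v := H.Adj u v ∧ ∃ z ∈ T, z.1 = s(ι u, ι v)
  adj_sub h := h.1
  edge_vert h := ⟨_, h⟩
  symm := ⟨fun u v h => ⟨h.1.symm, by rw [Sym2.eq_swap]; exact h.2⟩⟩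

lemma copyCount_le (H : SimpleGraph W) (ι : W → Fin n) (hι : Function.Injective ι)
    (T : Finset (EdgeSlot n)) (hT : T ⊆ slots H ι) (ω : EdgeSlot n → Bool) :
    (graphOf ω).copyCount (subOf H ι T).coe ≤
      ((univ.image (fun g : Equiv.Perm (Fin n) => T.image (g • ·))).filter
        (fun S => ∀ z ∈ S, ω z = true)).card := by
  classical
  unfold SimpleGraph.copyCount
  have hv : ∀ G' : (graphOf ω).Subgraph, Nonempty ((subOf H ι T).coe ≃g G'.coe) →
      ∀ a, a ∈ G'.verts ↔ ∃ b, G'.Adj a b := by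
    rintro G' ⟨φ⟩ a
    refine ⟨fun ha => ?_, fun ⟨b, h⟩ => G'.edge_vert h⟩
    obtain ⟨u, hu⟩ := φ.surjective ⟨a, ha⟩
    obtain ⟨v, hv⟩ := u.2
    have h1 : (subOf H ι T).Adj u.1 v := hv
    have h2 : (subOf H ι T).coe.Adj u ⟨v, (subOf H ι T).edge_vert h1.symm⟩ := h1
    have h3 := φ.map_rel_iff.2 h2
    rw [hu] at h3
    exact ⟨_, h3⟩
  refine card_le_card_of_injOn
    (fun G' => univ.filter (fun z : EdgeSlot n => z.1 ∈ G'.edgeSet)) (fun G' hG' => ?_) ?_
  · obtain ⟨φ⟩ := (mem_filter.1 (mem_coe.1 hG')).2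
    obtain ⟨σ, hσ⟩ := Equiv.Perm.exists_extending_pair
      (fun u : (subOf H ι T).verts => ι u.1) (fun u => (φ u).1)
      (hι.comp Subtype.val_injective) (Subtype.val_injective.comp φ.injective)
    refine mem_coe.2 (mem_filter.2 ⟨mem_image.2 ⟨σ, mem_univ _, ?_⟩, fun z hz => ?_⟩)
    · ext z
      rw [mem_image, mem_filter]
      constructor
      · rintro ⟨y, hy, rfl⟩
        obtain ⟨u, v, h, e⟩ := mem_slots.1 (hT hy)
        have h1 : (subOf H ι T).Adj u v := ⟨h, y, hy, e⟩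
        have h2 : (subOf H ι T).coe.Adj ⟨u, (subOf H ι T).edge_vert h1⟩
          ⟨v, (subOf H ι T).edge_vert h1.symm⟩ := h1
        have h3 := φ.map_rel_iff.2 h2
        refine ⟨mem_univ _, ?_⟩
        rw [smul_val, e, Sym2.map_mk, hσ ⟨u, (subOf H ι T).edge_vert h1⟩,
          hσ ⟨v, (subOf H ι T).edge_vert h1.symm⟩]
        exact h3
      · rintro ⟨_, hz⟩
        obtain ⟨z, hz'⟩ := z
        induction z using Sym2.ind with
        | _ a b =>
          have h1 : G'.Adj a b := hz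
          obtain ⟨u, hu⟩ := φ.surjective ⟨a, G'.edge_vert h1⟩
          obtain ⟨v, hv⟩ := φ.surjective ⟨b, G'.edge_vert h1.symm⟩
          have h2 : G'.coe.Adj (φ u) (φ v) := by rw [hu, hv]; exact h1
          obtain ⟨_, y, hy, e⟩ : (subOf H ι T).Adj u.1 v.1 := φ.map_rel_iff.1 h2
          refine ⟨y, hy, Subtype.ext ?_⟩
          rw [smul_val, e, Sym2.map_mk, hσ u, hσ v, hu, hv]
    · obtain ⟨z, hz'⟩ := z
      induction z using Sym2.ind with
      | _ a b =>
        have h1 : G'.Adj a b := (mem_filter.1 hz).2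
        obtain ⟨y, e, hy⟩ := (graphOf_adj ω a b).1 (G'.adj_sub h1)
        rwa [show y = ⟨s(a, b), hz'⟩ from Subtype.ext e] at hy
  · intro G₁ h₁ G₂ h₂ h
    have hadj : ∀ a b, G₁.Adj a b ↔ G₂.Adj a b := by
      intro a b
      by_cases hab : a = b
      · subst hab
        exact ⟨fun h => absurd rfl h.ne, fun h => absurd rfl h.ne⟩
      · have := congrArg (fun S => (⟨s(a, b), by simpa using hab⟩ : EdgeSlot n) ∈ S) h
        simpa using this
    refine SimpleGraph.Subgraph.ext ?_ (by ext a b; exact hadj a b)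
    ext a
    rw [hv G₁ (mem_filter.1 (mem_coe.1 h₁)).2, hv G₂ (mem_filter.1 (mem_coe.1 h₂)).2]
    simp only [hadj]

lemma orbit_of_expect (H : SimpleGraph W) (ι : W → Fin n) (hι : Function.Injective ι)
    (p : ℝ) (hp0 : 0 ≤ p) (hp1 : p ≤ 1) (T : Finset (EdgeSlot n)) (hT : T ⊆ slots H ι) :
    gnpExpect n p (fun G => (G.copyCount (subOf H ι T).coe : ℝ)) ≤
      ((univ.image (fun g : Equiv.Perm (Fin n) => T.image (g • ·))).card : ℝ) * p ^ T.card := by
  unfold gnpExpect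
  have hw : ∀ ω : EdgeSlot n → Bool, 0 ≤ bernoulliWeight p ω := fun ω =>
    prod_nonneg fun z _ => by split_ifs <;> linarith
  refine (sum_le_sum fun ω _ => mul_le_mul_of_nonneg_left
    (Nat.cast_le.2 (copyCount_le H ι hι T hT ω)) (hw ω)).trans ?_
  simp only [card_filter, Nat.cast_sum, Nat.cast_ite, Nat.cast_one, Nat.cast_zero, mul_sum]
  rw [sum_comm, ← nsmul_eq_mul]
  refine sum_le_card_nsmul _ _ _ fun S hS => ?_
  obtain ⟨g, _, rfl⟩ := mem_image.1 hS
  rw [prob_sub p hp0 hp1, card_image_of_injective _ (MulAction.injective g)]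

lemma contained_of (H : SimpleGraph W) (ι : W → Fin n) (hι : Function.Injective ι)
    (ω : EdgeSlot n → Bool) (g : Equiv.Perm (Fin n)) (h : ∀ x ∈ slots H ι, ω (g • x) = true) :
    H.IsContained (graphOf ω) := by
  refine ⟨⟨⟨fun u => g (ι u), fun {u v} huv => ?_⟩, g.injective.comp hι⟩⟩
  have hd : ¬ (s(ι u, ι v)).IsDiag := by simpa using hι.ne huv.ne
  exact (graphOf_adj ω _ _).2 ⟨g • ⟨_, hd⟩, rfl, h _ (mem_slots.2 ⟨u, v, huv, rfl⟩)⟩

end Crest.Agent.R55
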