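import Crest.Agent.R55.MGF

/-!
Row 55.  One planting step: transport inequality plus second moment.
-/

set_option autoImplicit false
set_option linter.unusedSectionVars false

namespace Crest.Agent.R55

open Finset

variable {ι : Type*} [Fintype ι] [DecidableEq ι] {M : ℕ}

/-- Planting density of the coordinate set `I`. -/
noncomputable def Lam (j : ι → ℕ) (I : Finset ι) (W : ι → Fin (M + 1)) : ℝ :=
  ∏ i ∈ I, if j i ≤ (W i).1 then (2 : ℝ) ^ j i else 0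

lemma Lam_nonneg (j : ι → ℕ) (I : Finset ι) (W : ι → Fin (M + 1)) : 0 ≤ Lam j I W :=
  prod_nonneg fun _ _ => by split_ifs <;> positivity

lemma Ex_Lam {j : ι → ℕ} (hj : ∀ i, j i ≤ M) (I : Finset ι) :
    Ex (gw M) (Lam (M := M) j I) = 1 := by
  have := Ex_prod_inj (gw_isW M) I (fun i : ι => i) (fun _ _ _ _ h => h)
    (fun i (y : Fin (M + 1)) => if j i ≤ y.1 then (2 : ℝ) ^ j i else 0)
  refine this.trans (prod_eq_one fun i _ => GE_tail M (j i) (hj i))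

lemma Lam_union (j : ι → ℕ) {I I' : Finset ι} (h : Disjoint I I') (W : ι → Fin (M + 1)) :
    Lam j (I ∪ I') W = Lam j I W * Lam j I' W := prod_union h

lemma Lam_le (j : ι → ℕ) (I : Finset ι) (W : ι → Fin (M + 1)) :
    Lam j I W ≤ ∏ i ∈ I, (2 : ℝ) ^ j i :=
  prod_le_prod (fun _ _ => by split_ifs <;> positivity)
    (fun _ _ => by split_ifs <;> [exact le_rfl; positivity])

lemma Lam_off (j : ι → ℕ) {I S : Finset ι} (h : Disjoint I S) (Y X : ι → Fin (M + 1)) :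
    Lam j I (S.piecewise Y X) = Lam j I X :=
  prod_congr rfl fun i hi => by rw [piecewise_eq_of_notMem _ _ _ (disjoint_left.1 h hi)]

lemma Lam_on (j : ι → ℕ) {I S : Finset ι} (h : I ⊆ S) (Y X : ι → Fin (M + 1)) :
    Lam j I (S.piecewise Y X) = Lam j I Y :=
  prod_congr rfl fun i hi => by rw [piecewise_eq_of_mem _ _ _ (h hi)]

lemma Ex_Lam3 {j : ι → ℕ} (hj : ∀ i, j i ≤ M) {I0 I I' : Finset ι} (h : Disjoint I0 I)
    (h' : Disjoint I0 I') :
    Ex (gw M) (fun W => Lam (M := M) j I0 W * (Lam j I W * Lam j I' W)) ≤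
      ∏ i ∈ I ∩ I', (2 : ℝ) ^ j i := by
  have hw := gw_isW M
  calc _ ≤ Ex (gw M) (fun W => (∏ i ∈ I ∩ I', (2 : ℝ) ^ j i) *
        Lam (M := M) j (I0 ∪ (I ∪ I')) W) := by
        refine Ex_mono hw fun W => ?_
        have e : Lam j I W * Lam j I' W = Lam j (I ∪ I') W * Lam j (I ∩ I') W :=
          prod_union_inter.symm
        rw [e, Lam_union j (disjoint_union_right.2 ⟨h, h'⟩), ← mul_assoc, mul_comm]
        exact mul_le_mul_of_nonneg_right (Lam_le _ _ _)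
          (mul_nonneg (Lam_nonneg _ _ _) (Lam_nonneg _ _ _))
    _ = _ := by rw [Ex_mul_left, Ex_Lam hj, mul_one]

theorem step {j : ι → ℕ} (hj : ∀ i, j i ≤ M) (S : Finset ι) {κ : Type*} (𝒦 : Finset κ)
    (h𝒦 : 𝒦.Nonempty) (I0 : Finset ι) (I1 I2 : κ → Finset ι) (h0 : Disjoint I0 S)
    (h1 : ∀ k ∈ 𝒦, Disjoint (I1 k) S) (h2 : ∀ k ∈ 𝒦, I2 k ⊆ S)
    (h01 : ∀ k ∈ 𝒦, Disjoint I0 (I1 k))
    (F : (ι → Fin (M + 1)) → ℝ) (τ V c : ℝ) (hτ : 0 < τ)
    (hF : ∀ X', ∃ a : ι → ℝ, (∀ i ∈ S, 0 ≤ a i ∧ τ * a i ≤ 1 / 16) ∧ ∑ i ∈ S, a i ^ 2 ≤ V ∧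
      ∀ X, (∀ i ∉ S, X i = X' i) → F X' - ∑ i ∈ S, a i * dd (X' i) (X i) ≤ F X)
    (h2m : ∑ k ∈ 𝒦, ∑ k' ∈ 𝒦, ∏ i ∈ (I1 k ∪ I2 k) ∩ (I1 k' ∪ I2 k'), (2 : ℝ) ^ j i ≤
      (𝒦.card : ℝ) ^ 2 * Real.exp c) :
    τ * (∑ k ∈ 𝒦, Ex (gw M) (fun W => Lam j (I0 ∪ (I1 k ∪ I2 k)) W * F W) -
      ∑ k ∈ 𝒦, Ex (gw M) (fun W => Lam j (I0 ∪ I1 k) W * F W)) ≤
      𝒦.card * (c + 8 * τ ^ 2 * V) := by
  have hw := gw_isW M
  set n : ℝ := (𝒦.card : ℝ) with hn
  have hn0 : 0 < n := by rw [hn]; exact_mod_cast h𝒦.card_pos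
  set m : (ι → Fin (M + 1)) → ℝ := fun X => Ex (gw M) (fun Y => F (S.piecewise Y X)) with hm
  have hmm : ∀ Y X, m (S.piecewise Y X) = m X := by
    intro Y X
    simp only [hm, piecewise_idem_right]
  have h02 : ∀ k ∈ 𝒦, Disjoint I0 (I1 k ∪ I2 k) := fun k hk =>
    disjoint_union_right.2 ⟨h01 k hk, h0.mono_right (h2 k hk)⟩
  have hA : ∀ k ∈ 𝒦, Ex (gw M) (fun W => Lam j (I0 ∪ I1 k) W * F W) =
      Ex (gw M) (fun W => Lam j (I0 ∪ (I1 k ∪ I2 k)) W * m W) := by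
    intro k hk
    have hd : Disjoint (I0 ∪ I1 k) S := disjoint_union_left.2 ⟨h0, h1 k hk⟩
    rw [← Ex_mix hw S, ← Ex_mix hw S (fun W => Lam j (I0 ∪ (I1 k ∪ I2 k)) W * m W)]
    refine Ex_congr fun X => ?_
    simp only [Lam_off j hd, ← union_assoc, Lam_union j (hd.mono_right (h2 k hk)),
      Lam_on j (h2 k hk), hmm]
    rw [Ex_mul_left, Ex_mul_right, Ex_mul_left, Ex_Lam hj, mul_one]
  set R : (ι → Fin (M + 1)) → ℝ := Lam j I0 with hR
  set Zt : (ι → Fin (M + 1)) → ℝ := fun W => n⁻¹ * ∑ k ∈ 𝒦, Lam j (I1 k ∪ I2 k) W with hZt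
  have hZt0 : ∀ W, 0 ≤ Zt W := fun W =>
    mul_nonneg (inv_nonneg.2 hn0.le) (sum_nonneg fun k _ => Lam_nonneg _ _ _)
  have hZ : ∀ G : (ι → Fin (M + 1)) → ℝ, Ex (gw M) (fun W => R W * Zt W * G W) =
      n⁻¹ * ∑ k ∈ 𝒦, Ex (gw M) (fun W => Lam j (I0 ∪ (I1 k ∪ I2 k)) W * G W) := by
    intro G
    rw [← Ex_sum, ← Ex_mul_left]
    refine Ex_congr fun W => ?_
    rw [sum_congr rfl (fun k hk => by rw [Lam_union j (h02 k hk)]), ← sum_mul, ← mul_sum]
    simp only [hR, hZt]; ring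
  have hZ1 : Ex (gw M) (fun W => R W * Zt W) = 1 := by
    have := hZ (fun _ => 1)
    simp only [mul_one] at this
    rw [this, sum_congr rfl (fun k _ => Ex_Lam hj _)]
    simp only [sum_const, nsmul_eq_mul, mul_one]
    exact inv_mul_cancel₀ hn0.ne'
  set u : (ι → Fin (M + 1)) → ℝ := fun W => τ / 2 * (F W - m W) with hu
  have hJ := Ex_jensen hw (fun W => R W * Zt W) u
    (fun W => mul_nonneg (Lam_nonneg _ _ _) (hZt0 W)) hZ1
  have hC := Ex_cs hw R Zt (fun W => Real.exp (u W)) (fun W => Lam_nonneg _ _ _)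
  have hS : Ex (gw M) (fun W => R W * Zt W ^ 2) ≤ Real.exp c := by
    have e : Ex (gw M) (fun W => R W * Zt W ^ 2) = n⁻¹ ^ 2 * ∑ k ∈ 𝒦, ∑ k' ∈ 𝒦,
        Ex (gw M) (fun W => Lam j I0 W * (Lam j (I1 k ∪ I2 k) W * Lam j (I1 k' ∪ I2 k') W)) := by
      simp_rw [← Ex_sum]
      rw [← Ex_mul_left]
      refine Ex_congr fun W => ?_
      simp_rw [← mul_sum, ← sum_mul]
      simp only [hR, hZt]; ring
    rw [e]
    have e2 := (sum_le_sum fun k hk => sum_le_sum fun k' hk' =>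
      Ex_Lam3 hj (h02 k hk) (h02 k' hk')).trans h2m
    refine (mul_le_mul_of_nonneg_left e2 (by positivity)).trans (le_of_eq ?_)
    field_simp
  have hT : Ex (gw M) (fun W => R W * Real.exp (u W) ^ 2) ≤ Real.exp (8 * τ ^ 2 * V) := by
    rw [← Ex_mix hw S]
    refine (Ex_mono hw (g := fun X => R X * Real.exp (8 * τ ^ 2 * V)) fun X => ?_).trans ?_
    · simp only [hR, Lam_off j h0]
      rw [Ex_mul_left]
      refine mul_le_mul_of_nonneg_left ?_ (Lam_nonneg _ _ _)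
      have key := mgf M S (fun Y => τ * F (S.piecewise Y X)) (τ ^ 2 * V) (fun Y' => by
        obtain ⟨a, ha, hV, hR'⟩ := hF (S.piecewise Y' X)
        refine ⟨fun i => if i ∈ S then τ * a i else 0, fun i => ?_, ?_, fun Y => ?_⟩
        · by_cases hi : i ∈ S
          · simp only [hi, if_true]
            exact ⟨mul_nonneg hτ.le (ha i hi).1, (ha i hi).2⟩
          · simp [hi]
        · beta_reduce
          rw [sum_congr rfl (fun i hi => by rw [if_pos hi, mul_pow]), ← mul_sum]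
          exact mul_le_mul_of_nonneg_left hV (sq_nonneg _)
        · have h3 := hR' (S.piecewise Y X) (fun i hi => by
            rw [piecewise_eq_of_notMem _ _ _ hi, piecewise_eq_of_notMem _ _ _ hi])
          rw [sum_congr rfl (fun i hi => by
            rw [piecewise_eq_of_mem _ _ _ hi, piecewise_eq_of_mem _ _ _ hi])] at h3
          beta_reduce
          rw [sum_congr rfl (fun i hi => by rw [if_pos hi, mul_assoc]), ← mul_sum, ← mul_sub]
          exact mul_le_mul_of_nonneg_left h3 hτ.le)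
      rw [Ex_mul_left] at key
      refine le_of_eq_of_le (Ex_congr fun Y => ?_) (key.trans (le_of_eq (by congr 1; ring)))
      rw [← Real.exp_nat_mul]
      congr 1
      simp only [hu, hmm]
      push_cast
      ring
    · rw [Ex_mul_right, hR, Ex_Lam hj, one_mul]
  have hE : Ex (gw M) (fun W => R W * Zt W * u W) * 2 ≤ c + 8 * τ ^ 2 * V := by
    rw [← Real.exp_le_exp, Real.exp_add]
    have e1 : Real.exp (Ex (gw M) (fun W => R W * Zt W * u W) * 2) =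
        Real.exp (Ex (gw M) (fun W => R W * Zt W * u W)) ^ 2 := by
      rw [← Real.exp_nat_mul]; congr 1; push_cast; ring
    rw [e1]
    refine (pow_le_pow_left₀ (Real.exp_pos _).le hJ 2).trans ?_
    simp only [mul_assoc] at hC ⊢
    refine hC.trans ?_
    simp only [mul_assoc] at hS hT
    exact mul_le_mul hS hT (Ex_nonneg hw fun W => mul_nonneg (Lam_nonneg _ _ _) (sq_nonneg _))
      (Real.exp_pos _).le
  rw [hZ] at hE
  rw [sum_congr rfl hA, ← sum_sub_distrib]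
  have e3 : ∀ k ∈ 𝒦, Ex (gw M) (fun W => Lam j (I0 ∪ (I1 k ∪ I2 k)) W * u W) =
      τ / 2 * (Ex (gw M) (fun W => Lam j (I0 ∪ (I1 k ∪ I2 k)) W * F W) -
        Ex (gw M) (fun W => Lam j (I0 ∪ (I1 k ∪ I2 k)) W * m W)) := by
    intro k _
    rw [← Ex_sub, ← Ex_mul_left]
    exact Ex_congr fun W => by simp only [hu]; ring
  rw [sum_congr rfl e3, ← mul_sum] at hE
  have := mul_le_mul_of_nonneg_left hE hn0.le
  refine le_of_eq_of_le ?_ this
  field_simp

end Crest.Agent.R55
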