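import Crest.Agent.R55.Main
import Crest.Agent.R63.Spread

/-!
Row 55.  The spread lemma with geometrically decaying round errors (a refinement of
`R63.one_round` / `R63.spread_rounds`), and the abstract threshold theorem.
-/

set_option autoImplicit false
set_option linter.unusedSectionVars false

namespace Crest.Agent.R55

open Finset Crest.Agent.R63

section
variable {X : Type*} [Fintype X] [DecidableEq X]

/-- One round of the minimal-fragment argument. -/
lemma one_round' {ι : Type*} (s : Finset ι) (fr : ι → Finset X) (k : ℕ) (p R Z : ℝ)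
    (hp0 : 0 < p) (hp1 : p ≤ 1) (hpR : 4 ≤ p * R) (hZ : 0 ≤ Z)
    (hk : ∀ i ∈ s, (fr i).card ≤ 2 * k + 1)
    (hspread : ∀ U : Finset X, ((s.filter (fun i => U ⊆ fr i)).card : ℝ) * R ^ U.card ≤ Z) :
    ∃ T : (X → Bool) → ι → Finset X,
      (∀ W, ∀ i ∈ s, T W i ⊆ fr i ∧ ∃ j ∈ s, ∀ x ∈ fr j, x ∈ T W i ∨ W x = true) ∧
      ∑ W : X → Bool, mu p W * ((s.filter (fun i => k < (T W i).card)).card : ℝ) ≤
        Z * (2 / (p * R)) * (4 / (p * R)) ^ k := by
  classical
  have hR : 0 < R := by
    by_contra h
    push Not at h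
    nlinarith
  -- minimal fragments
  have hmin : ∀ (W : X → Bool) (i : ι), ∃ U : Finset X, i ∈ s →
      (∃ j ∈ s, (∀ x ∈ fr j, x ∈ fr i ∨ W x = true) ∧ U = (fr j).filter (fun x => W x = false)) ∧
      ∀ j ∈ s, (∀ x ∈ fr j, x ∈ fr i ∨ W x = true) →
        U.card ≤ ((fr j).filter (fun x => W x = false)).card := by
    intro W i
    by_cases hi : i ∈ s
    · obtain ⟨j, hj, hjmin⟩ := Finset.exists_min_image
        (s.filter (fun j => ∀ x ∈ fr j, x ∈ fr i ∨ W x = true))
        (fun j => ((fr j).filter (fun x => W x = false)).card)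
        ⟨i, by simp [hi]; exact fun x hx => Or.inl hx⟩
      rw [Finset.mem_filter] at hj
      refine ⟨(fr j).filter (fun x => W x = false), fun _ => ⟨⟨j, hj.1, hj.2, rfl⟩, ?_⟩⟩
      intro j' hj' h'
      exact hjmin j' (Finset.mem_filter.mpr ⟨hj', h'⟩)
    · exact ⟨∅, fun h => absurd h hi⟩
  choose T hT using hmin
  -- canonical member below a set
  have hcan : ∀ V : X → Bool, ∃ A : Finset X, A.card ≤ 2 * k + 1 ∧
      ((∃ j ∈ s, ∀ x ∈ fr j, V x = true) → ∃ j ∈ s, A = fr j ∧ ∀ x ∈ fr j, V x = true) := by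
    intro V
    by_cases h : ∃ j ∈ s, ∀ x ∈ fr j, V x = true
    · obtain ⟨j, hj, hj'⟩ := h
      exact ⟨fr j, hk j hj, fun _ => ⟨j, hj, rfl, hj'⟩⟩
    · exact ⟨∅, by simp, fun h' => absurd h' h⟩
  choose A hA using hcan
  have hTsub : ∀ W, ∀ i ∈ s, T W i ⊆ fr i := by
    intro W i hi x hx
    obtain ⟨⟨j, _, hj, hU⟩, _⟩ := hT W i hi
    rw [hU, Finset.mem_filter] at hx
    rcases hj x hx.1 with h | h
    · exact h
    · rw [hx.2] at h; exact absurd h (by simp)
  have hTW : ∀ W, ∀ i ∈ s, ∀ x ∈ T W i, W x = false := by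
    intro W i hi x hx
    obtain ⟨⟨j, _, _, hU⟩, _⟩ := hT W i hi
    rw [hU, Finset.mem_filter] at hx
    exact hx.2
  have hTcov : ∀ W, ∀ i ∈ s, ∃ j ∈ s, ∀ x ∈ fr j, x ∈ T W i ∨ W x = true := by
    intro W i hi
    obtain ⟨⟨j, hjs, _, hU⟩, _⟩ := hT W i hi
    refine ⟨j, hjs, fun x hx => ?_⟩
    cases hW : W x
    · left; rw [hU, Finset.mem_filter]; exact ⟨hx, hW⟩
    · right; rfl
  have hTA : ∀ W, ∀ i ∈ s, T W i ⊆ A (fun x => W x || decide (x ∈ T W i)) := by
    intro W i hi
    obtain ⟨j, hjs, hj⟩ := hTcov W i hi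
    obtain ⟨j', hj's, hAj, hj'⟩ := (hA (fun x => W x || decide (x ∈ T W i))).2
      ⟨j, hjs, fun x hx => by rcases hj x hx with h | h <;> simp [h]⟩
    have hsub : (fr j').filter (fun x => W x = false) ⊆ T W i := by
      intro x hx
      rw [Finset.mem_filter] at hx
      have := hj' x hx.1
      simpa [hx.2] using this
    have hle := (hT W i hi).2 j' hj's (fun x hx => by
      have := hj' x hx
      simp only [Bool.or_eq_true, decide_eq_true_eq] at this
      rcases this with h | h
      · exact Or.inr h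
      · exact Or.inl (hTsub W i hi h))
    have heq := Finset.eq_of_subset_of_card_le hsub hle
    rw [hAj, ← heq]
    exact Finset.filter_subset _ _
  refine ⟨T, fun W i hi => ⟨hTsub W i hi, hTcov W i hi⟩, ?_⟩
  -- counting
  set good : (X → Bool) → Finset X → Prop := fun W U =>
    k < U.card ∧ (∀ x ∈ U, W x = false) ∧ U ⊆ A (fun x => W x || decide (x ∈ U)) with hgood
  have hcount : ∀ W, ((s.filter (fun i => k < (T W i).card)).card : ℝ) ≤
      ∑ U : Finset X, if good W U then Z / R ^ U.card else 0 := by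
    intro W
    have h1 : (s.filter (fun i => k < (T W i).card)).card =
        ∑ U : Finset X, ((s.filter (fun i => k < (T W i).card)).filter (fun i => T W i = U)).card :=
      Finset.card_eq_sum_card_fiberwise (fun _ _ => Finset.mem_univ _)
    rw [h1]
    push_cast
    refine Finset.sum_le_sum fun U _ => ?_
    split_ifs with hg
    · rw [le_div_iff₀ (by positivity)]
      refine le_trans ?_ (hspread U)
      gcongr
      intro i hi
      simp only [Finset.mem_filter] at hi ⊢
      exact ⟨hi.1.1, hi.2 ▸ hTsub W i hi.1.1⟩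
    · have : ((s.filter (fun i => k < (T W i).card)).filter (fun i => T W i = U)) = ∅ := by
        rw [Finset.filter_eq_empty_iff]
        intro i hi hU
        rw [Finset.mem_filter] at hi
        apply hg
        subst hU
        exact ⟨hi.2, hTW W i hi.1, hTA W i hi.1⟩
      simp [this]
  have hpR0 : 0 < p * R := by linarith
  have hstep : ∀ U : Finset X,
      ∑ W : X → Bool, mu p W * (if good W U then Z / R ^ U.card else 0) ≤
      ∑ V : X → Bool, mu p V * (if k < U.card ∧ U ⊆ A V then Z / (p * R) ^ U.card else 0) := by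
    intro U
    set G : (X → Bool) → ℝ := fun V =>
      mu p V * (if k < U.card ∧ U ⊆ A V then Z / (p * R) ^ U.card else 0) with hG
    have hG0 : ∀ V, 0 ≤ G V := fun V =>
      mul_nonneg (mu_nonneg hp0.le hp1 _) (by split_ifs <;> positivity)
    set D : Finset (X → Bool) := Finset.univ.filter (fun W => ∀ x ∈ U, W x = false) with hD
    set φ : (X → Bool) → (X → Bool) := fun W x => W x || decide (x ∈ U) with hφ
    have hinj : Set.InjOn φ D := by
      intro W hW W' hW' h
      simp only [hD, Finset.coe_filter, Finset.mem_univ, true_and, Set.mem_ofPred_eq] at hW hW'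
      funext x
      by_cases hx : x ∈ U
      · rw [hW x hx, hW' x hx]
      · have := congrFun h x
        simpa [hφ, hx] using this
    calc ∑ W : X → Bool, mu p W * (if good W U then Z / R ^ U.card else 0)
        = ∑ W ∈ D, mu p W * (if good W U then Z / R ^ U.card else 0) := by
          symm
          refine Finset.sum_subset (Finset.subset_univ _) fun W _ hW => ?_
          have : ¬ good W U := fun hg => hW (by simp only [hD, Finset.mem_filter]; exact ⟨by simp, hg.2.1⟩)
          simp [this]
      _ ≤ ∑ W ∈ D, G (φ W) := by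
          refine Finset.sum_le_sum fun W hW => ?_
          simp only [hD, Finset.mem_filter, Finset.mem_univ, true_and] at hW
          split_ifs with hg
          · have h1 : k < U.card ∧ U ⊆ A (φ W) := ⟨hg.1, hg.2.2⟩
            simp only [hG, if_pos h1]
            have h2 := mu_le_union hp0.le hp1 W U hW
            calc mu p W * (Z / R ^ U.card) = (mu p W * p ^ U.card) * (Z / (p * R) ^ U.card) := by
                  rw [mul_pow]; field_simp
              _ ≤ _ := mul_le_mul_of_nonneg_right h2 (by positivity)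
          · simpa using hG0 _
      _ = ∑ V ∈ D.image φ, G V := (Finset.sum_image hinj).symm
      _ ≤ ∑ V, G V := Finset.sum_le_sum_of_subset_of_nonneg (Finset.subset_univ _)
          fun V _ _ => hG0 V
  have hfin : ∀ V : X → Bool,
      ∑ U : Finset X, (if k < U.card ∧ U ⊆ A V then Z / (p * R) ^ U.card else 0) ≤
        Z * (2 / (p * R)) * (4 / (p * R)) ^ k := by
    intro V
    have hpR1 : 1 ≤ p * R := by linarith
    calc ∑ U : Finset X, (if k < U.card ∧ U ⊆ A V then Z / (p * R) ^ U.card else 0)
        ≤ ∑ U : Finset X, (if U ∈ (A V).powerset then Z / (p * R) ^ (k + 1) else 0) := by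
          refine Finset.sum_le_sum fun U _ => ?_
          by_cases h : k < U.card ∧ U ⊆ A V
          · rw [if_pos h, if_pos (Finset.mem_powerset.mpr h.2)]
            exact div_le_div_of_nonneg_left hZ (by positivity) (pow_le_pow_right₀ hpR1 h.1)
          · rw [if_neg h]; split_ifs <;> positivity
      _ = 2 ^ (A V).card * (Z / (p * R) ^ (k + 1)) := by
          rw [Finset.sum_ite_mem]; simp
      _ ≤ 2 ^ (2 * k + 1) * (Z / (p * R) ^ (k + 1)) := by
          gcongr
          · norm_num
          · exact (hA V).1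
      _ = Z * (2 / (p * R)) * (4 / (p * R)) ^ k := by
          rw [div_pow, pow_succ, pow_succ, pow_mul]; field_simp; norm_num; ring
  calc ∑ W : X → Bool, mu p W * ((s.filter (fun i => k < (T W i).card)).card : ℝ)
      ≤ ∑ W : X → Bool, mu p W * ∑ U : Finset X, if good W U then Z / R ^ U.card else 0 :=
        Finset.sum_le_sum fun W _ =>
          mul_le_mul_of_nonneg_left (hcount W) (mu_nonneg hp0.le hp1 _)
    _ = ∑ U : Finset X, ∑ W : X → Bool, mu p W * (if good W U then Z / R ^ U.card else 0) := by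
        simp_rw [Finset.mul_sum]; exact Finset.sum_comm
    _ ≤ ∑ U : Finset X, ∑ V : X → Bool,
          mu p V * (if k < U.card ∧ U ⊆ A V then Z / (p * R) ^ U.card else 0) :=
        Finset.sum_le_sum fun U _ => hstep U
    _ = ∑ V : X → Bool, mu p V *
          ∑ U : Finset X, (if k < U.card ∧ U ⊆ A V then Z / (p * R) ^ U.card else 0) := by
        simp_rw [Finset.mul_sum]; exact Finset.sum_comm
    _ ≤ ∑ V : X → Bool, mu p V * (Z * (2 / (p * R)) * (4 / (p * R)) ^ k) :=
        Finset.sum_le_sum fun V _ => mul_le_mul_of_nonneg_left (hfin V) (mu_nonneg hp0.le hp1 _)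
    _ = _ := by rw [← Finset.sum_mul, sum_mu, one_mul]

open Classical in
/-- The spread lemma, by induction on the number of rounds. -/
lemma spread_rounds' {ι : Type*} (p R Z : ℝ) (hp0 : 0 < p) (hp1 : p < 1) (hpR : p * R = 8)
    (hZ : 0 ≤ Z) (L : ℕ) :
    ∀ (q : ℝ), L * p ≤ q → q ≤ 1 → ∀ (s : Finset ι) (fr : ι → Finset X),
      (∀ i ∈ s, (fr i).card < 2 ^ L) →
      (∀ U : Finset X, ((s.filter (fun i => U ⊆ fr i)).card : ℝ) * R ^ U.card ≤ Z) →
      (∑ W : X → Bool, mu q W * (if ∃ i ∈ s, ∀ x ∈ fr i, W x = true then 0 else 1)) * s.card ≤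
        Z * (1 / 2 * (1 - (1 / 2) ^ L)) := by
  have hR : 0 < R := by
    by_contra h
    push Not at h
    nlinarith
  induction L with
  | zero =>
    intro q _ _ s fr hk _
    rcases s.eq_empty_or_nonempty with rfl | ⟨i, hi⟩
    · simp
    · have : ∀ W : X → Bool, ∃ i ∈ s, ∀ x ∈ fr i, W x = true := by
        intro W
        refine ⟨i, hi, fun x hx => ?_⟩
        have := hk i hi
        simp only [pow_zero, Nat.lt_one_iff, Finset.card_eq_zero] at this
        rw [this] at hx; simp at hx
      simp [this]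
  | succ L ih =>
    intro q hq hq1 s fr hk hspread
    push_cast at hq
    have hLp : 0 ≤ (L : ℝ) * p := by positivity
    set q' := (q - p) / (1 - p) with hq'
    have h1p : 0 < 1 - p := by linarith
    have hq'L : L * p ≤ q' := by
      rw [hq', le_div_iff₀ h1p]; nlinarith
    have hq'1 : q' ≤ 1 := by rw [hq', div_le_one h1p]; linarith
    have hq'0 : 0 ≤ q' := le_trans hLp hq'L
    have hqq : q = p + q' - p * q' := by rw [hq']; field_simp; ring
    obtain ⟨T, hT, hTsum⟩ := one_round' s fr (2 ^ L - 1) p R Z hp0 hp1.le (by rw [hpR]; norm_num) hZ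
      (fun i hi => by
        have := hk i hi
        have h2 : 1 ≤ 2 ^ L := Nat.one_le_two_pow
        rw [pow_succ] at this; omega) hspread
    rw [hqq, ← mu_union, Finset.sum_mul]
    have hW : ∀ W : X → Bool,
        (∑ W' : X → Bool, mu q' W' *
          (if ∃ i ∈ s, ∀ x ∈ fr i, (W x || W' x) = true then (0 : ℝ) else 1)) * s.card ≤
        Z * (1 / 2 * (1 - (1 / 2) ^ L)) + ((s.filter (fun i => 2 ^ L - 1 < (T W i).card)).card : ℝ) := by
      intro W
      set s' := s.filter (fun i => ¬ (2 ^ L - 1 < (T W i).card)) with hs'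
      have hih := ih q' hq'L hq'1 s' (T W) (fun i hi => by
          rw [hs', Finset.mem_filter] at hi
          have h2 : 1 ≤ 2 ^ L := Nat.one_le_two_pow
          omega) (fun U => by
          refine le_trans ?_ (hspread U)
          gcongr
          intro i hi
          simp only [hs', Finset.mem_filter] at hi ⊢
          exact ⟨hi.1.1, hi.2.trans (hT W i hi.1.1).1⟩)
      have hcard : (s.card : ℝ) = s'.card +
          ((s.filter (fun i => 2 ^ L - 1 < (T W i).card)).card : ℝ) := by
        rw [hs', add_comm]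
        exact_mod_cast (Finset.card_filter_add_card_filter_not _).symm
      have hle : (∑ W' : X → Bool, mu q' W' *
          (if ∃ i ∈ s, ∀ x ∈ fr i, (W x || W' x) = true then (0 : ℝ) else 1)) ≤
          ∑ W' : X → Bool, mu q' W' *
            (if ∃ i ∈ s', ∀ x ∈ T W i, W' x = true then (0 : ℝ) else 1) := by
        refine Finset.sum_le_sum fun W' _ =>
          mul_le_mul_of_nonneg_left ?_ (mu_nonneg hq'0 hq'1 _)
        by_cases h : ∃ i ∈ s', ∀ x ∈ T W i, W' x = true
        · obtain ⟨i, hi, hi'⟩ := h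
          rw [hs', Finset.mem_filter] at hi
          obtain ⟨j, hj, hj'⟩ := (hT W i hi.1).2
          rw [if_pos ⟨j, hj, fun x hx => by
            rcases hj' x hx with h | h
            · rw [hi' x h, Bool.or_true]
            · rw [h, Bool.true_or]⟩]
          split_ifs
          · exact le_rfl
          · exact zero_le_one
        · rw [if_neg h]
          split_ifs
          · exact zero_le_one
          · exact le_rfl
      have hle1 : (∑ W' : X → Bool, mu q' W' *
          (if ∃ i ∈ s, ∀ x ∈ fr i, (W x || W' x) = true then (0 : ℝ) else 1)) ≤ 1 := by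
        calc _ ≤ ∑ W' : X → Bool, mu q' W' * 1 := Finset.sum_le_sum fun W' _ =>
              mul_le_mul_of_nonneg_left (by
                split_ifs
                · exact zero_le_one
                · exact le_rfl) (mu_nonneg hq'0 hq'1 _)
          _ = 1 := by rw [← Finset.sum_mul, sum_mu, one_mul]
      rw [hcard, mul_add]
      refine add_le_add (le_trans (mul_le_mul_of_nonneg_right hle (Nat.cast_nonneg _)) hih) ?_
      exact mul_le_of_le_one_left (Nat.cast_nonneg _) hle1
    calc ∑ W : X → Bool, (mu p W * ∑ W' : X → Bool, mu q' W' *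
          (if ∃ i ∈ s, ∀ x ∈ fr i, (W x || W' x) = true then (0 : ℝ) else 1)) * s.card
        ≤ ∑ W : X → Bool, mu p W * (Z * (1 / 2 * (1 - (1 / 2) ^ L)) +
            ((s.filter (fun i => 2 ^ L - 1 < (T W i).card)).card : ℝ)) := by
          refine Finset.sum_le_sum fun W _ => ?_
          rw [mul_assoc]
          exact mul_le_mul_of_nonneg_left (hW W) (mu_nonneg hp0.le hp1.le _)
      _ = Z * (1 / 2 * (1 - (1 / 2) ^ L)) + ∑ W : X → Bool, mu p W *
            ((s.filter (fun i => 2 ^ L - 1 < (T W i).card)).card : ℝ) := by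
          simp_rw [mul_add]
          rw [Finset.sum_add_distrib, ← Finset.sum_mul, sum_mu, one_mul]
      _ ≤ Z * (1 / 2 * (1 - (1 / 2) ^ L)) + Z * (1 / 4) * (1 / 2) ^ L := by
          refine add_le_add le_rfl (hTsum.trans ?_)
          rw [hpR, show (2 : ℝ) / 8 = 1 / 4 by norm_num, show (4 : ℝ) / 8 = 1 / 2 by norm_num]
          refine mul_le_mul_of_nonneg_left (pow_le_pow_of_le_one (by norm_num) (by norm_num) ?_)
            (by positivity)
          have := @Nat.lt_two_pow_self L
          omega
      _ = _ := by rw [pow_succ]; ring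

end

open Classical in
theorem abstract_KK {G Ω : Type*} [Group G] [Fintype G] [Fintype Ω] [DecidableEq Ω]
    [MulAction G Ω] (H : Finset Ω) (q : ℝ) (hq : 0 < q)
    (horb : ∀ T ⊆ H, 1 / 2 ≤ ((univ.image (fun g : G => T.image (g • ·))).card : ℝ) * q ^ T.card)
    (L : ℕ) (hL : H.card < 2 ^ L) (hL1 : 1 ≤ L) (Q : ℝ) (hQ : L * (2 ^ 61 * q) ≤ Q) (hQ1 : Q < 1) :
    ∑ W : Ω → Bool, mu Q W * (if ∃ g : G, ∀ x ∈ H, W (g • x) = true then 0 else 1) ≤ 1 / 2 := by
  have hL' : (1 : ℝ) ≤ L := by exact_mod_cast hL1
  have hG : (0 : ℝ) < Fintype.card G := by exact_mod_cast Fintype.card_pos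
  have key := spread_rounds' (X := Ω) (ι := G) (2 ^ 61 * q) (1 / (2 ^ 58 * q)) (Fintype.card G)
    (by positivity) (by nlinarith) (by field_simp; norm_num) hG.le L Q hQ hQ1.le univ
    (fun g => H.image (g • ·)) (fun g _ => lt_of_le_of_lt card_image_le hL) (fun U => by
      have h1 := spread_main H q hq horb U
      have h2 : (univ.filter (fun g : G => U ⊆ H.image (g • ·))).card ≤
          (univ.filter (fun g : G => ∀ x ∈ U, g • x ∈ H)).card := by
        refine card_le_card_of_injOn (fun g => g⁻¹) (fun g hg => ?_) inv_injective.injOn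
        simp only [coe_filter, mem_univ, true_and, Set.mem_ofPred_eq] at hg ⊢
        intro x hx
        obtain ⟨y, hy, rfl⟩ := mem_image.1 (hg hx)
        rwa [inv_smul_smul]
      rw [one_div, inv_pow, ← div_eq_mul_inv, div_le_iff₀ (by positivity)]
      exact le_trans (by exact_mod_cast h2) h1)
  rw [card_univ, mul_comm (Fintype.card G : ℝ)] at key
  have h2 := le_of_mul_le_mul_right key hG
  have h3 : (0 : ℝ) ≤ (1 / 2) ^ L := by positivity
  refine le_trans (le_of_eq (sum_congr rfl fun W _ => ?_)) (h2.trans (by linarith))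
  congr 1
  simp

end Crest.Agent.R55
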